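import Crest.Agent.Lib.CStarPure.State

/-! # Row 73: matrix approximation in an algebra generated by two Cuntz isometries -/

set_option autoImplicit false

open scoped InnerProductSpace
open Filter Topology

namespace Crest.Agent.R73

namespace Cz

open Crest.Agent.Lib.CStarPure

variable {O : Type} [CStarAlgebra O]

/-- The Cuntz relations. -/
structure Rel (s : Bool → O) : Prop where
  orth : ∀ i j, star (s i) * s j = if i = j then 1 else 0
  sum : ∑ i, s i * star (s i) = 1

lemma rel_of {s₁ s₂ : O} (h1 : star s₁ * s₁ = 1) (h2 : star s₂ * s₂ = 1)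
    (h3 : s₁ * star s₁ + s₂ * star s₂ = 1) : Rel fun b => if b then s₁ else s₂ := by
  have h4 : star s₂ * s₁ = 0 := by
    have e : star s₁ * (s₁ * star s₁ + s₂ * star s₂) * s₁ = 1 := by rw [h3, mul_one, h1]
    have e2 : star s₁ * (s₁ * star s₁ + s₂ * star s₂) * s₁ =
        star s₁ * s₁ * (star s₁ * s₁) + star (star s₂ * s₁) * (star s₂ * s₁) := by
      simp only [star_mul, star_star]; noncomm_ring
    rw [e2, h1, one_mul, add_eq_left] at e
    exact (CStarRing.star_mul_self_eq_zero_iff _).1 e
  have h5 : star s₁ * s₂ = 0 := by simpa using congrArg star h4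
  refine ⟨fun i j => ?_, by simpa using h3⟩
  cases i <;> cases j <;> simp [h1, h2, h4, h5]

/-- The isometry of a word. -/
def W (s : Bool → O) (l : List Bool) : O := (l.map s).prod

@[simp] lemma W_nil (s : Bool → O) : W s [] = 1 := rfl

lemma W_cons (s : Bool → O) (i : Bool) (l : List Bool) : W s (i :: l) = s i * W s l := by
  simp [W]

lemma W_append (s : Bool → O) (l l' : List Bool) : W s (l ++ l') = W s l * W s l' := by
  simp [W]

variable {s : Bool → O}

lemma star_W_cons_mul (hs : Rel s) (i j : Bool) (u v : List Bool) :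
    star (W s (i :: u)) * W s (j :: v) = if i = j then star (W s u) * W s v else 0 := by
  rw [W_cons, W_cons, star_mul, mul_assoc, ← mul_assoc (star (s i)), hs.orth]
  split_ifs <;> simp

lemma W_iso (hs : Rel s) (u : List Bool) : star (W s u) * W s u = 1 := by
  induction u with
  | nil => simp
  | cons i u ih => rw [star_W_cons_mul hs, if_pos rfl, ih]

lemma W_orth (hs : Rel s) (u v : List Bool) (n : ℕ) {a b : Bool} (hu : u[n]? = some a)
    (hv : v[n]? = some b) (hab : a ≠ b) : star (W s u) * W s v = 0 := by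
  induction u generalizing v n with
  | nil => simp at hu
  | cons i u ih =>
    cases v with
    | nil => simp at hv
    | cons j v =>
      rw [star_W_cons_mul hs]
      split_ifs with hij
      · cases n with
        | zero =>
          simp only [List.getElem?_cons_zero, Option.some.injEq] at hu hv
          exact absurd (hu.symm.trans (hij.trans hv)) hab
        | succ n => exact ih v n (by simpa using hu) (by simpa using hv)
      · rfl

lemma exists_wandering [Nontrivial O] (hs : Rel s) :
    ∃ g : O →L[ℂ] ℂ, IsState g ∧ ∀ ν, ν ≠ [] → g (W s ν) = 0 := by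
  obtain ⟨f, hf⟩ : ∃ f : O →L[ℂ] ℂ, IsState f := by
    let _ := CStarAlgebra.spectralOrder O
    have _ := CStarAlgebra.spectralOrderedRing O
    obtain ⟨f, hf, -⟩ := exists_state_norm (A := O) (h := 0) le_rfl
    exact ⟨f, hf⟩
  let w : ℕ → List Bool := fun k => List.replicate k false ++ [true]
  let g : ℕ → O →L[ℂ] ℂ := fun k =>
    f.comp (ContinuousLinearMap.mulLeftRight ℂ O (star (W s (w k))) (W s (w k)))
  have hg : ∀ k y, g k y = f (star (W s (w k)) * y * W s (w k)) := fun k y => rfl
  have hst : ∀ k, IsState (g k) := fun k => by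
    refine isState_of_pos (fun x => ?_) (by rw [hg, mul_one, W_iso hs, hf.map_one])
    have := hf.star_mul_self_nonneg (x * W s (w k))
    rwa [star_mul, mul_assoc, ← mul_assoc (star x), ← mul_assoc, ← hg] at this
  obtain ⟨G, hG, hlim⟩ := exists_state_tendsto (hyperfilter ℕ) g (Eventually.of_forall hst)
  refine ⟨G, hG, fun ν hν => tendsto_nhds_unique (hlim _) ?_⟩
  refine tendsto_const_nhds.congr' ?_
  have hev : ∀ᶠ k in (hyperfilter ℕ : Filter ℕ), ν.length ≤ k :=
    Nat.hyperfilter_le_atTop (eventually_ge_atTop _)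
  filter_upwards [hev] with k hk
  have hpos : 0 < ν.length := List.length_pos_iff.2 hν
  rw [hg, mul_assoc, ← W_append,
    W_orth hs (w k) (ν ++ w k) k (a := true) (b := false) ?_ ?_ (by simp), map_zero]
  · simp [w]
  · rw [List.getElem?_append_right hk]
    simp only [w]
    rw [List.getElem?_append_left (by simp; omega), List.getElem?_replicate, if_pos (by omega)]

lemma state_orth (hs : Rel s) {g : O →L[ℂ] ℂ} (hg : IsState g)
    (hw : ∀ ν, ν ≠ [] → g (W s ν) = 0) (μ ν : List Bool) :
    g (star (W s μ) * W s ν) = if μ = ν then 1 else 0 := by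
  induction μ generalizing ν with
  | nil =>
    by_cases h : ν = []
    · subst h; simp [hg.map_one]
    · simp [hw ν h, Ne.symm h]
  | cons i μ ih =>
    cases ν with
    | nil => simp [hg.map_star, hw (i :: μ) (by simp)]
    | cons j ν =>
      rw [star_W_cons_mul hs]
      by_cases hij : i = j
      · subst hij; simp [ih]
      · simp [hij]

/-- Words of a given length. -/
def Wd : ℕ → Finset (List Bool)
  | 0 => {[]}
  | m + 1 => (Finset.univ ×ˢ Wd m).map
      ⟨fun p => p.1 :: p.2, fun p q h => by simpa [Prod.ext_iff] using h⟩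

lemma sum_Wd_succ {M : Type*} [AddCommMonoid M] (m : ℕ) (f : List Bool → M) :
    ∑ μ ∈ Wd (m + 1), f μ = ∑ i, ∑ μ ∈ Wd m, f (i :: μ) := by
  rw [Wd, Finset.sum_map, Finset.sum_product]
  rfl

lemma mem_Wd {m : ℕ} {μ : List Bool} : μ ∈ Wd m ↔ μ.length = m := by
  induction m generalizing μ with
  | zero => simp [Wd]
  | succ m ih =>
    cases μ with
    | nil => simp [Wd]
    | cons i μ =>
      simp only [Wd, Finset.mem_map, Finset.mem_product, Finset.mem_univ, true_and, ih,
        List.length_cons, add_left_inj]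
      exact ⟨fun ⟨p, h1, h2⟩ => (List.cons.inj h2).2 ▸ h1, fun h => ⟨(i, μ), h, rfl⟩⟩

lemma sum_Wd (hs : Rel s) (m : ℕ) : ∑ μ ∈ Wd m, W s μ * star (W s μ) = 1 := by
  induction m with
  | zero => simp [Wd]
  | succ m ih =>
    rw [sum_Wd_succ, ← hs.sum]
    refine Finset.sum_congr rfl fun i _ => ?_
    have : ∀ μ, W s (i :: μ) * star (W s (i :: μ)) =
        s i * (W s μ * star (W s μ)) * star (s i) := fun μ => by
      rw [W_cons, star_mul]; noncomm_ring
    simp only [this, ← Finset.sum_mul, ← Finset.mul_sum, ih, mul_one]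

/-- One block of the approximating map. -/
noncomputable def B (s : Bool → O) (g : O →L[ℂ] ℂ) (m n : ℕ) (y : O) : O :=
  ∑ μ ∈ Wd m, ∑ ν ∈ Wd n, g (star (W s μ) * y * W s ν) • (W s μ * star (W s ν))

variable {g : O →L[ℂ] ℂ}

lemma B_zero (m n : ℕ) : B s g m n 0 = 0 := by simp [B]

lemma B_add (m n : ℕ) (y z : O) : B s g m n (y + z) = B s g m n y + B s g m n z := by
  simp [B, mul_add, add_mul, add_smul, Finset.sum_add_distrib]

lemma B_smul (m n : ℕ) (c : ℂ) (y : O) : B s g m n (c • y) = c • B s g m n y := by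
  simp [B, Finset.smul_sum, smul_smul]

lemma B_left (hs : Rel s) (m n : ℕ) (i : Bool) (y : O) :
    B s g (m + 1) n (s i * y) = s i * B s g m n y := by
  have : ∀ z, B s g (m + 1) n z = ∑ j, s j * B s g m n (star (s j) * z) := fun z => by
    simp only [B, sum_Wd_succ, W_cons, Finset.mul_sum, star_mul, mul_smul_comm, mul_assoc]
  rw [this, Finset.sum_eq_single i]
  · rw [← mul_assoc (star (s i)), hs.orth, if_pos rfl, one_mul]
  · intro j _ hj
    rw [← mul_assoc (star (s j)), hs.orth, if_neg hj, zero_mul, B_zero, mul_zero]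
  · simp

lemma B_right (hs : Rel s) (m n : ℕ) (i : Bool) (y : O) :
    B s g m (n + 1) (y * star (s i)) = B s g m n y * star (s i) := by
  have : ∀ z, B s g m (n + 1) z = ∑ j, B s g m n (z * s j) * star (s j) := fun z => by
    simp only [B, sum_Wd_succ, W_cons, Finset.sum_mul, star_mul, smul_mul_assoc, mul_assoc]
    exact Finset.sum_comm
  rw [this, Finset.sum_eq_single i]
  · rw [mul_assoc y, hs.orth, if_pos rfl, mul_one]
  · intro j _ hj
    rw [mul_assoc y, hs.orth, if_neg (Ne.symm hj), mul_zero, B_zero, zero_mul]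
  · simp

lemma B_one (hs : Rel s) (hg : IsState g) (hw : ∀ ν, ν ≠ [] → g (W s ν) = 0) (m n : ℕ) :
    B s g m n 1 = if m = n then 1 else 0 := by
  simp only [B, mul_one, state_orth hs hg hw, ite_smul, one_smul, zero_smul, Finset.sum_ite_eq]
  split_ifs with h
  · subst h
    rw [← sum_Wd hs m]
    exact Finset.sum_congr rfl fun μ hμ => if_pos hμ
  · exact Finset.sum_eq_zero fun μ hμ => if_neg fun h' => h ((mem_Wd.1 hμ).symm.trans (mem_Wd.1 h'))

lemma B_W_left (hs : Rel s) (m n : ℕ) (α : List Bool) (y : O) :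
    B s g (m + α.length) n (W s α * y) = W s α * B s g m n y := by
  induction α with
  | nil => simp
  | cons i α ih => rw [W_cons, List.length_cons, ← add_assoc, mul_assoc, B_left hs, ih, mul_assoc]

lemma B_W_right (hs : Rel s) (m n : ℕ) (β : List Bool) (y : O) :
    B s g m (n + β.length) (y * star (W s β)) = B s g m n y * star (W s β) := by
  induction β with
  | nil => simp
  | cons i β ih =>
    rw [W_cons, List.length_cons, ← add_assoc, star_mul, ← mul_assoc, B_right hs, ih, mul_assoc]

lemma B_mon (hs : Rel s) (hg : IsState g) (hw : ∀ ν, ν ≠ [] → g (W s ν) = 0)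
    (α β : List Bool) {m n : ℕ} (hm : α.length ≤ m) (hn : β.length ≤ n) :
    B s g m n (W s α * star (W s β)) =
      if m + β.length = n + α.length then W s α * star (W s β) else 0 := by
  obtain ⟨m, rfl⟩ := Nat.exists_eq_add_of_le' hm
  obtain ⟨n, rfl⟩ := Nat.exists_eq_add_of_le' hn
  have h := B_W_right (g := g) hs m n β 1
  rw [one_mul] at h
  rw [B_W_left hs, h, B_one hs hg hw]
  by_cases hmn : m = n
  · rw [if_pos hmn, if_pos (by omega), one_mul]
  · rw [if_neg hmn, if_neg (by omega), zero_mul, mul_zero]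

/-- The approximating map. -/
noncomputable def Th (s : Bool → O) (g : O →L[ℂ] ℂ) (N : ℕ) (y : O) : O :=
  (N : ℂ)⁻¹ • ∑ a ∈ Finset.range N, ∑ b ∈ Finset.range N, B s g (N + a) (N + b) y

lemma Th_zero (N : ℕ) : Th s g N 0 = 0 := by simp [Th, B_zero]

lemma Th_add (N : ℕ) (y z : O) : Th s g N (y + z) = Th s g N y + Th s g N z := by
  simp [Th, B_add, Finset.sum_add_distrib]

lemma Th_smul (N : ℕ) (c : ℂ) (y : O) : Th s g N (c • y) = c • Th s g N y := by
  simp only [Th, B_smul, ← Finset.smul_sum]
  exact smul_comm _ _ _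

lemma norm_count (y : O) (p q N : ℕ) :
    ‖(N : ℂ) • y - ∑ a ∈ Finset.range N, ∑ b ∈ Finset.range N,
      (if N + a + q = N + b + p then y else 0)‖ ≤ (p + q) * ‖y‖ := by
  have e1 : ∀ a, ∑ b ∈ Finset.range N, (if N + a + q = N + b + p then y else 0) =
      y - if p ≤ a + q ∧ a + q < N + p then 0 else y := fun a => by
    split_ifs with h
    · rw [Finset.sum_eq_single_of_mem (a + q - p) (Finset.mem_range.2 (by omega)),
        if_pos (by omega), sub_zero]
      exact fun b _ hb => if_neg (by omega)
    · rw [sub_self]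
      exact Finset.sum_eq_zero fun b hb => if_neg (by have := Finset.mem_range.1 hb; omega)
  simp only [e1, Finset.sum_sub_distrib, Finset.sum_const, Finset.card_range]
  rw [Nat.cast_smul_eq_nsmul, sub_sub_cancel, Finset.sum_ite, Finset.sum_const_zero, zero_add,
    Finset.sum_const]
  refine (norm_nsmul_le (a := y)).trans ?_
  gcongr
  have : ((Finset.range N).filter fun a => ¬(p ≤ a + q ∧ a + q < N + p)) ⊆
      Finset.range p ∪ Finset.Ico (N - q) N := fun a ha => by
    simp only [Finset.mem_filter, Finset.mem_range, Finset.mem_union, Finset.mem_Ico] at ha ⊢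
    omega
  have h2 := (Finset.card_le_card this).trans (Finset.card_union_le _ _)
  simp only [Finset.card_range, Nat.card_Ico] at h2
  exact_mod_cast h2.trans (by omega)

lemma Th_mon (hs : Rel s) (hg : IsState g) (hw : ∀ ν, ν ≠ [] → g (W s ν) = 0)
    (α β : List Bool) :
    Tendsto (fun N => Th s g N (W s α * star (W s β))) atTop (𝓝 (W s α * star (W s β))) := by
  rw [tendsto_iff_norm_sub_tendsto_zero]
  refine squeeze_zero' (Eventually.of_forall fun _ => norm_nonneg _) ?_
    (tendsto_const_div_atTop_nhds_zero_nat ((α.length + β.length) * ‖W s α * star (W s β)‖))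
  filter_upwards [eventually_ge_atTop α.length, eventually_ge_atTop β.length,
    eventually_gt_atTop 0] with N h1 h2 h3
  have hN : (N : ℂ) ≠ 0 := by exact_mod_cast h3.ne'
  have e : Th s g N (W s α * star (W s β)) - W s α * star (W s β) =
      -((N : ℂ)⁻¹ • ((N : ℂ) • (W s α * star (W s β)) -
        ∑ a ∈ Finset.range N, ∑ b ∈ Finset.range N,
        (if N + a + β.length = N + b + α.length then W s α * star (W s β) else 0))) := by
    rw [smul_sub, smul_smul, inv_mul_cancel₀ hN, one_smul, neg_sub, Th]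
    congr 2
    exact Finset.sum_congr rfl fun a _ => Finset.sum_congr rfl fun b _ =>
      B_mon hs hg hw α β (by omega) (by omega)
  rw [e, norm_neg, norm_smul, norm_inv, Complex.norm_natCast, div_eq_inv_mul]
  gcongr
  exact norm_count _ _ _ _

/-- The span of the monomials. -/
noncomputable def P (s : Bool → O) : Submodule ℂ O :=
  Submodule.span ℂ (Set.range fun p : List Bool × List Bool => W s p.1 * star (W s p.2))

lemma mon_mem (α β : List Bool) : W s α * star (W s β) ∈ P s := Submodule.subset_span ⟨(α, β), rfl⟩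

lemma mul_mem_P {x : O} (h : ∀ α β, x * (W s α * star (W s β)) ∈ P s) {y : O} (hy : y ∈ P s) :
    x * y ∈ P s := by
  induction hy using Submodule.span_induction with
  | mem y hy => obtain ⟨p, rfl⟩ := hy; exact h _ _
  | zero => simp
  | add y z _ _ h1 h2 => rw [mul_add]; exact add_mem h1 h2
  | smul c y _ h1 => rw [mul_smul_comm]; exact Submodule.smul_mem _ _ h1

lemma mem_P (hs : Rel s) {x : O} (hx : x ∈ StarAlgebra.adjoin ℂ (Set.range s)) : x ∈ P s := by
  have key : ∀ y ∈ P s, x * y ∈ P s ∧ star x * y ∈ P s := by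
    induction hx using StarAlgebra.adjoin_induction with
    | mem x hx =>
      obtain ⟨i, rfl⟩ := hx
      refine fun y hy => ⟨mul_mem_P (fun α β => ?_) hy, mul_mem_P (fun α β => ?_) hy⟩
      · rw [← mul_assoc, ← W_cons]; exact mon_mem _ _
      · cases α with
        | nil =>
          have := mon_mem (s := s) [] (β ++ [i])
          simpa [W_append, W_cons] using this
        | cons j α =>
          rw [W_cons, ← mul_assoc, ← mul_assoc, hs.orth]
          split_ifs
          · rw [one_mul]; exact mon_mem _ _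
          · simp
    | algebraMap r =>
      intro y hy
      rw [← algebraMap_star_comm, ← Algebra.smul_def, ← Algebra.smul_def]
      exact ⟨Submodule.smul_mem _ _ hy, Submodule.smul_mem _ _ hy⟩
    | add x z _ _ h1 h2 =>
      intro y hy
      rw [star_add, add_mul, add_mul]
      exact ⟨add_mem (h1 y hy).1 (h2 y hy).1, add_mem (h1 y hy).2 (h2 y hy).2⟩
    | mul x z _ _ h1 h2 =>
      intro y hy
      rw [star_mul, mul_assoc, mul_assoc]
      exact ⟨(h1 _ (h2 y hy).1).1, (h2 _ (h1 y hy).2).2⟩
    | star x _ h1 =>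
      intro y hy
      rw [star_star]
      exact (h1 y hy).symm
  simpa using (key _ (mon_mem [] [])).1

lemma Th_tendsto (hs : Rel s) (hg : IsState g) (hw : ∀ ν, ν ≠ [] → g (W s ν) = 0) {y : O}
    (hy : y ∈ P s) : Tendsto (fun N => Th s g N y) atTop (𝓝 y) := by
  induction hy using Submodule.span_induction with
  | mem y hy => obtain ⟨p, rfl⟩ := hy; exact Th_mon hs hg hw _ _
  | zero => simp [Th_zero]
  | add y z _ _ h1 h2 => simpa only [Th_add] using h1.add h2
  | smul c y _ h1 => simpa only [Th_smul] using h1.const_smul c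

/-- Words of length in `[N, 2N)`. -/
def T (N : ℕ) : Finset (List Bool) := (Finset.range N).biUnion fun a => Wd (N + a)

lemma sum_T {M : Type*} [AddCommMonoid M] (N : ℕ) (f : List Bool → M) :
    ∑ μ : T N, f μ = ∑ a ∈ Finset.range N, ∑ μ ∈ Wd (N + a), f μ := by
  rw [Finset.sum_coe_sort, T, Finset.sum_biUnion]
  intro a _ b _ hab
  refine Finset.disjoint_left.2 fun μ h1 h2 => hab ?_
  have := (mem_Wd.1 h1).symm.trans (mem_Wd.1 h2)
  omega

lemma apply_sum {I : Type} [Fintype I] (e : I → O) (y : O) (v w : I → ℂ) :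
    g (star (∑ i, v i • e i) * (y * ∑ i, w i • e i)) =
      ∑ i, ∑ i', star (v i) * g (star (e i) * y * e i') * w i' := by
  simp only [star_sum, star_smul, Finset.sum_mul, Finset.mul_sum, map_sum, smul_mul_assoc,
    mul_smul_comm, map_smul, smul_eq_mul, mul_assoc]
  rw [Finset.sum_comm]
  refine Finset.sum_congr rfl fun i _ => Finset.sum_congr rfl fun i' _ => ?_
  ring

lemma nrm_sum (hg : IsState g) {I : Type} [Fintype I] [DecidableEq I] {e : I → O}
    (he : ∀ i j, g (star (e i) * e j) = if i = j then 1 else 0) (v : EuclideanSpace ℂ I) :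
    nrm g (∑ i, v i • e i) = ‖v‖ := by
  refine (sq_eq_sq₀ (nrm_nonneg _ _) (norm_nonneg _)).1 ?_
  have := apply_sum (g := g) e 1 v v
  simp only [one_mul, mul_one, he, mul_ite, ite_mul, mul_zero, zero_mul, Finset.sum_ite_eq,
    Finset.mem_univ, if_true] at this
  rw [hg.nrm_sq, this, EuclideanSpace.norm_sq_eq, Complex.re_sum]
  refine Finset.sum_congr rfl fun i _ => ?_
  rw [Complex.star_def, Complex.conj_mul', ← Complex.ofReal_pow, Complex.ofReal_re]

end Cz

open Cz Crest.Agent.Lib.CStarPure in
/-- Completely positive approximation.  For a word `μ : List Bool` let `S μ` be the product of the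
isometries.  There is a state `g` with `g (S ν) = 0` for `ν ≠ []` (limit of
`y ↦ f (star (S w) * y * S w)`, `w = 1^k 2`), so `g (star (S μ) * S ν) = δ_{μ ν}`.  With `I` the words of
length in `[N, 2N)`, `b μ ν = g (star (S μ) * y * S ν)` and `J ν = N^(-1/2) star (S ν)`, the sum
`∑ b μ ν • star (J μ) * J ν` tends to `y` for `y = S α * star (S β)`, hence on the span. -/
theorem cpap {O : Type} [CStarAlgebra O] [Nontrivial O] {s₁ s₂ : O} (h1 : star s₁ * s₁ = 1)
    (h2 : star s₂ * s₂ = 1) (h3 : s₁ * star s₁ + s₂ * star s₂ = 1)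
    (hgen : (StarAlgebra.adjoin ℂ ({s₁, s₂} : Set O)).topologicalClosure = ⊤)
    {S : Type} [Fintype S] (y : S → O) {ε : ℝ} (hε : 0 < ε) :
    ∃ (I : Type) (_ : Fintype I) (b : S → I → I → ℂ) (J : I → O), ∑ i, star (J i) * J i = 1 ∧
      (∀ s (v w : EuclideanSpace ℂ I),
        ‖∑ i, ∑ i', star (v i) * b s i i' * w i'‖ ≤ (‖y s‖ + ε) * (‖v‖ * ‖w‖)) ∧
      ∀ s, ‖y s - ∑ i, ∑ i', b s i i' • (star (J i) * J i')‖ ≤ ε := by
  classical
  have hs := rel_of h1 h2 h3
  set s : Bool → O := fun b => if b then s₁ else s₂ with hsdef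
  obtain ⟨g, hg, hw⟩ := exists_wandering hs
  have hr : Set.range s = {s₁, s₂} := by
    ext x
    simp [hsdef, eq_comm, or_comm]
  have hd : ∀ t, ∃ z ∈ P s, ‖y t - z‖ < ε / 2 := fun t => by
    have : y t ∈ closure (StarAlgebra.adjoin ℂ ({s₁, s₂} : Set O) : Set O) := by
      rw [← StarSubalgebra.topologicalClosure_coe, hgen]; trivial
    obtain ⟨z, hz, hz'⟩ := Metric.mem_closure_iff.1 this (ε / 2) (half_pos hε)
    exact ⟨z, mem_P hs (hr ▸ hz), by rwa [← dist_eq_norm]⟩
  choose z hz hz' using hd
  have hev : ∀ᶠ N in atTop, 0 < N ∧ ∀ t, dist (Th s g N (z t)) (z t) < ε / 2 :=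
    (eventually_gt_atTop 0).and (eventually_all.2 fun t =>
      Metric.tendsto_nhds.1 (Th_tendsto hs hg hw (hz t)) _ (half_pos hε))
  obtain ⟨N, hN, hN'⟩ := hev.exists
  obtain ⟨c, hc⟩ : ∃ c : ℂ, star c * c = (N : ℂ)⁻¹ := ⟨((√N)⁻¹ : ℝ), by
    rw [Complex.star_def, Complex.conj_ofReal, ← Complex.ofReal_mul, ← mul_inv,
      Real.mul_self_sqrt (Nat.cast_nonneg N)]
    simp⟩
  have hJ : ∀ μ ν : List Bool, star (c • star (W s μ)) * (c • star (W s ν)) =
      (N : ℂ)⁻¹ • (W s μ * star (W s ν)) := fun μ ν => by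
    rw [star_smul, star_star, smul_mul_smul_comm, hc]
  refine ⟨T N, inferInstance, fun t μ ν => g (star (W s μ) * z t * W s ν),
    fun μ => c • star (W s μ), ?_, fun t v w => ?_, fun t => ?_⟩
  · simp only [hJ, ← Finset.smul_sum]
    rw [sum_T N fun μ => W s μ * star (W s μ)]
    simp only [sum_Wd hs, Finset.sum_const, Finset.card_range]
    rw [← Nat.cast_smul_eq_nsmul ℂ, smul_smul, inv_mul_cancel₀ (by exact_mod_cast hN.ne'),
      one_smul]
  · have he : ∀ i j : T N, g (star (W s i) * W s j) = if i = j then 1 else 0 := fun i j => by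
      rw [state_orth hs hg hw]
      simp only [Subtype.ext_iff]
    rw [← apply_sum (fun μ : T N => W s μ)]
    refine (hg.norm_star_mul_le _ _).trans ?_
    refine (mul_le_mul_of_nonneg_left (hg.nrm_mul_le _ _) (nrm_nonneg _ _)).trans ?_
    rw [nrm_sum hg he, nrm_sum hg he, mul_left_comm]
    gcongr
    have := norm_sub_norm_le (z t) (y t)
    rw [norm_sub_rev] at this
    linarith [hz' t]
  · have e : ∑ μ : T N, ∑ ν : T N, g (star (W s μ) * z t * W s ν) •
        (star (c • star (W s μ)) * (c • star (W s ν))) = Th s g N (z t) := by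
      simp only [hJ, smul_comm _ (N : ℂ)⁻¹, ← Finset.smul_sum, Th, B]
      congr 1
      rw [sum_T N fun μ => ∑ ν : T N, g (star (W s μ) * z t * W s ν) • (W s μ * star (W s ν))]
      refine Finset.sum_congr rfl fun a _ => ?_
      rw [Finset.sum_comm (s := Finset.range N)]
      exact Finset.sum_congr rfl fun μ _ =>
        sum_T N fun ν => g (star (W s μ) * z t * W s ν) • (W s μ * star (W s ν))
    rw [e]
    have h4 := hN' t
    rw [dist_eq_norm, norm_sub_rev] at h4
    have := norm_add_le (y t - z t) (z t - Th s g N (z t))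
    rw [sub_add_sub_cancel] at this
    linarith [hz' t]

end Crest.Agent.R73
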