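import Mathlib

/-!
# Row 73: definitions

`F = ZMod 11`.  A `TSys` is a system of four one-parameter families in a group, any two of which
satisfy a Heisenberg commutation relation; such a system has a spectral gap (file `T`).
`Mon Y` is the group of monomial transformations (phase and permutation) of a set `Y`, and
`op b w` is the operator `b ⊗ w` on `ℓ²(Y; H)`.
-/

set_option autoImplicit false

open scoped InnerProductSpace
open Filter Topology

namespace Crest.Agent.R73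

/-- The field with eleven elements. -/
abbrev F : Type := ZMod 11

instance : Fact (Nat.Prime 11) := ⟨by norm_num⟩

/-- The standard additive character. -/
noncomputable def ec : AddChar F ℂ := ZMod.stdAddChar

lemma ec_add (a b : F) : ec (a + b) = ec a * ec b := AddChar.map_add_eq_mul _ _ _

@[simp] lemma ec_zero : ec 0 = 1 := AddChar.map_zero_eq_one _

@[simp] lemma norm_ec (a : F) : ‖ec a‖ = 1 := AddChar.norm_apply _ _

lemma ec_neg (a : F) : ec (-a) = (starRingEnd ℂ) (ec a) := AddChar.map_neg_eq_conj _ _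

lemma ec_injective : Function.Injective ec := ZMod.injective_stdAddChar

lemma sum_ec_mul (b : F) : ∑ a : F, ec (a * b) = if b = 0 then 11 else 0 := by
  have := AddChar.sum_mulShift b (ZMod.isPrimitive_stdAddChar 11)
  simpa [ec] using this

section TSys
variable {K K' : Type*} [Group K] [Group K']

/-- A one-parameter family. -/
def IsFam (X : F → K) : Prop := ∀ a b, X (a + b) = X a * X b

lemma IsFam.zero {X : F → K} (h : IsFam X) : X 0 = 1 := by
  have := h 0 0
  rw [add_zero] at this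
  exact (mul_eq_left.1 this.symm)

lemma IsFam.neg {X : F → K} (h : IsFam X) (a : F) : X (-a) = (X a)⁻¹ := by
  rw [eq_inv_iff_mul_eq_one, ← h, neg_add_cancel, h.zero]

/-- The Heisenberg relation between two families (with `Z = 1` when they commute). -/
def Heis (X Y : F → K) : Prop :=
  ∃ Z : F → K, IsFam Z ∧ (∀ a b, Z a * X b = X b * Z a) ∧ (∀ a b, Z a * Y b = Y b * Z a) ∧
    ∀ a b, X a * Y b = Z (a * b) * Y b * X a

lemma Heis.of_comm {X Y : F → K} (h : ∀ a b, X a * Y b = Y b * X a) : Heis X Y :=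
  ⟨fun _ => 1, fun _ _ => by simp, fun _ _ => by simp, fun _ _ => by simp, fun a b => by simp [h]⟩

lemma Heis.symm {X Y : F → K} (h : Heis X Y) : Heis Y X := by
  obtain ⟨Z, hZ, h1, h2, h3⟩ := h
  refine ⟨fun c => Z (-c), fun a b => ?_, fun a b => h2 _ _, fun a b => h1 _ _, fun a b => ?_⟩
  · simp only [neg_add, hZ (-a) (-b)]
  · simp only [mul_assoc]
    rw [h3 b a, hZ.neg, mul_comm b a]
    group

/-- Four families, any two of which satisfy a Heisenberg relation. -/
structure TSys (X : Fin 4 → F → K) : Prop where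
  fam : ∀ i, IsFam (X i)
  heis : ∀ i j, i ≠ j → Heis (X i) (X j)

lemma TSys.of_six {X : Fin 4 → F → K} (fam : ∀ i, IsFam (X i)) (h01 : Heis (X 0) (X 1))
    (h12 : Heis (X 1) (X 2)) (h20 : Heis (X 2) (X 0)) (h03 : Heis (X 0) (X 3))
    (h13 : Heis (X 1) (X 3)) (h23 : Heis (X 2) (X 3)) : TSys X := by
  refine ⟨fam, fun i j hij => ?_⟩
  fin_cases i <;> fin_cases j <;>
    first
      | exact absurd rfl hij
      | assumption
      | exact Heis.symm (by assumption)

lemma TSys.map {X : Fin 4 → F → K} (h : TSys X) (f : K →* K') : TSys fun i c => f (X i c) := by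
  refine ⟨fun i a b => by simp only [h.fam i a b, map_mul], fun i j hij => ?_⟩
  obtain ⟨Z, hZ, h1, h2, h3⟩ := h.heis i j hij
  exact ⟨fun c => f (Z c), fun a b => by simp only [hZ a b, map_mul],
    fun a b => by simp only [← map_mul, h1], fun a b => by simp only [← map_mul, h2],
    fun a b => by simp only [← map_mul, h3]⟩

lemma TSys.prod {X : Fin 4 → F → K} {X' : Fin 4 → F → K'} (h : TSys X) (h' : TSys X') :
    TSys fun i c => (X i c, X' i c) := by
  refine ⟨fun i a b => by simp only [h.fam i a b, h'.fam i a b, Prod.mk_mul_mk],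
    fun i j hij => ?_⟩
  obtain ⟨Z, hZ, h1, h2, h3⟩ := h.heis i j hij
  obtain ⟨Z', hZ', h1', h2', h3'⟩ := h'.heis i j hij
  exact ⟨fun c => (Z c, Z' c), fun a b => by simp only [hZ a b, hZ' a b, Prod.mk_mul_mk],
    fun a b => by simp only [Prod.mk_mul_mk, h1, h1'],
    fun a b => by simp only [Prod.mk_mul_mk, h2, h2'],
    fun a b => by simp only [Prod.mk_mul_mk, h3, h3']⟩

lemma TSys.pi {ι : Type*} {G : ι → Type*} [∀ n, Group (G n)] {X : ∀ n, Fin 4 → F → G n}
    (h : ∀ n, TSys (X n)) : TSys (K := ∀ n, G n) fun i c n => X n i c := by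
  refine ⟨fun i a b => funext fun n => (h n).fam i a b, fun i j hij => ?_⟩
  choose Z hZ h1 h2 h3 using fun n => (h n).heis i j hij
  exact ⟨fun c n => Z n c, fun a b => funext fun n => hZ n a b,
    fun a b => funext fun n => h1 n a b, fun a b => funext fun n => h2 n a b,
    fun a b => funext fun n => h3 n a b⟩

end TSys

/-- The energy of a vector with respect to a finite family of maps. -/
noncomputable def En {V : Type*} [SeminormedAddCommGroup V] (T : Fin 4 → F → V → V) (v : V) : ℝ :=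
  ∑ i, ∑ c, ‖T i c v - v‖ ^ 2

lemma En_nonneg {V : Type*} [SeminormedAddCommGroup V] (T : Fin 4 → F → V → V) (v : V) :
    0 ≤ En T v := by
  unfold En; positivity

lemma le_En {V : Type*} [SeminormedAddCommGroup V] (T : Fin 4 → F → V → V) (v : V) (i : Fin 4)
    (c : F) : ‖T i c v - v‖ ^ 2 ≤ En T v := by
  unfold En
  refine le_trans ?_ (Finset.single_le_sum (f := fun i => ∑ c, ‖T i c v - v‖ ^ 2)
    (fun _ _ => by positivity) (Finset.mem_univ i))
  exact Finset.single_le_sum (f := fun c => ‖T i c v - v‖ ^ 2) (fun _ _ => by positivity)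
    (Finset.mem_univ c)

lemma En_le {V : Type*} [SeminormedAddCommGroup V] {T : Fin 4 → F → V → V} {v : V} {C : ℝ}
    (h : ∀ i c, ‖T i c v - v‖ ^ 2 ≤ C) : En T v ≤ 44 * C := by
  unfold En
  calc _ ≤ ∑ _i : Fin 4, ∑ _c : F, C :=
        Finset.sum_le_sum fun i _ => Finset.sum_le_sum fun c _ => h i c
    _ = 44 * C := by simp [ZMod.card]; ring

/-- An asymptotic unitary representation along an ultrafilter. -/
structure AsymRep (ω : Ultrafilter ℕ) {K : Type*} [Group K] {H : ℕ → Type*}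
    [∀ n, NormedAddCommGroup (H n)] [∀ n, InnerProductSpace ℂ (H n)]
    (R : ∀ n, K → H n →L[ℂ] H n) : Prop where
  bdd : ∀ g, ∃ C, ∀ n, ‖R n g‖ ≤ C
  mul : ∀ g h, Tendsto (fun n => ‖R n (g * h) - R n g ∘L R n h‖) ω (𝓝 0)
  one : Tendsto (fun n => ‖R n 1 - 1‖) ω (𝓝 0)
  iso : ∀ g, ∃ η : ℕ → ℝ, Tendsto η ω (𝓝 0) ∧ ∀ n x, |‖R n g x‖ ^ 2 - ‖x‖ ^ 2| ≤ η n * ‖x‖ ^ 2

/-- Monomial transformations: a phase and a permutation. -/
@[ext] structure Mon (Y : Type*) where
  ph : Y → F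
  pm : Equiv.Perm Y

namespace Mon
variable {Y : Type*}

instance : Group (Mon Y) where
  mul a b := ⟨fun y => a.ph y + b.ph (a.pm y), a.pm.trans b.pm⟩
  one := ⟨0, Equiv.refl Y⟩
  inv a := ⟨fun y => -a.ph (a.pm.symm y), a.pm.symm⟩
  mul_assoc a b c := Mon.ext (funext fun y => add_assoc _ _ _) rfl
  one_mul a := Mon.ext (funext fun y => zero_add _) rfl
  mul_one a := Mon.ext (funext fun y => add_zero _) rfl
  inv_mul_cancel a := Mon.ext (funext fun y => neg_add_cancel _) (Equiv.symm_trans_self _)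

@[simp] lemma mul_ph (a b : Mon Y) (y : Y) : (a * b).ph y = a.ph y + b.ph (a.pm y) := rfl
@[simp] lemma mul_pm (a b : Mon Y) (y : Y) : (a * b).pm y = b.pm (a.pm y) := rfl
@[simp] lemma one_ph (y : Y) : (1 : Mon Y).ph y = 0 := rfl
@[simp] lemma one_pm (y : Y) : (1 : Mon Y).pm y = y := rfl

lemma ext' {a b : Mon Y} (h1 : ∀ y, a.ph y = b.ph y) (h2 : ∀ y, a.pm y = b.pm y) : a = b :=
  Mon.ext (funext h1) (Equiv.ext h2)

/-- The conjugation action on pairs. -/
def dbl : Mon Y →* Mon (Y × Y) where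
  toFun a := ⟨fun p => a.ph p.1 - a.ph p.2, a.pm.prodCongr a.pm⟩
  map_one' := ext' (fun _ => sub_self _) fun _ => rfl
  map_mul' a b := ext' (fun p => by
    simp only [mul_ph, Equiv.prodCongr_apply, Prod.map_fst, Prod.map_snd]; ring) fun _ => rfl

@[simp] lemma dbl_ph (a : Mon Y) (p : Y × Y) : (dbl a).ph p = a.ph p.1 - a.ph p.2 := rfl
@[simp] lemma dbl_pm (a : Mon Y) (p : Y × Y) : (dbl a).pm p = (a.pm p.1, a.pm p.2) := rfl

end Mon

/-- `ℓ²(Y; H)`. -/
abbrev L2 (Y : Type*) (H : Type*) : Type _ := PiLp 2 fun _ : Y => H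

section Op
variable {Y : Type*} [Fintype Y] {H : Type*} [NormedAddCommGroup H] [InnerProductSpace ℂ H]

omit [InnerProductSpace ℂ H] in
lemma L2_norm_sq (x : L2 Y H) : ‖x‖ ^ 2 = ∑ y, ‖x y‖ ^ 2 := PiLp.norm_sq_eq_of_L2 _ x

/-- `b ⊗ w` as a linear map. -/
noncomputable def opL (b : H →L[ℂ] H) (w : Mon Y) : L2 Y H →ₗ[ℂ] L2 Y H where
  toFun x := WithLp.toLp 2 fun y => ec (w.ph y) • b (x (w.pm y))
  map_add' x x' := by ext y; simp
  map_smul' c x := by ext y; simp [smul_comm c]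

lemma norm_sq_opL (b : H →L[ℂ] H) (w : Mon Y) (x : L2 Y H) :
    ‖opL b w x‖ ^ 2 = ∑ y, ‖b (x y)‖ ^ 2 := by
  rw [L2_norm_sq, ← Equiv.sum_comp w.pm fun y => ‖b (x y)‖ ^ 2]
  simp [opL, norm_smul]

lemma norm_opL_le (b : H →L[ℂ] H) (w : Mon Y) (x : L2 Y H) : ‖opL b w x‖ ≤ ‖b‖ * ‖x‖ := by
  refine (sq_le_sq₀ (by positivity) (by positivity)).1 ?_
  rw [norm_sq_opL, mul_pow, L2_norm_sq, Finset.mul_sum]
  refine Finset.sum_le_sum fun y _ => ?_
  rw [← mul_pow]
  gcongr
  exact b.le_opNorm _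

/-- The operator `b ⊗ w` on `ℓ²(Y; H)`. -/
noncomputable def op (b : H →L[ℂ] H) (w : Mon Y) : L2 Y H →L[ℂ] L2 Y H :=
  (opL b w).mkContinuous ‖b‖ (norm_opL_le b w)

@[simp] lemma op_apply (b : H →L[ℂ] H) (w : Mon Y) (x : L2 Y H) (y : Y) :
    op b w x y = ec (w.ph y) • b (x (w.pm y)) := rfl

lemma norm_sq_op (b : H →L[ℂ] H) (w : Mon Y) (x : L2 Y H) :
    ‖op b w x‖ ^ 2 = ∑ y, ‖b (x y)‖ ^ 2 := norm_sq_opL b w x

lemma norm_op_apply_le (b : H →L[ℂ] H) (w : Mon Y) (x : L2 Y H) : ‖op b w x‖ ≤ ‖b‖ * ‖x‖ :=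
  norm_opL_le b w x

lemma norm_op_le (b : H →L[ℂ] H) (w : Mon Y) : ‖op b w‖ ≤ ‖b‖ :=
  ContinuousLinearMap.opNorm_le_bound _ (norm_nonneg _) (norm_op_apply_le b w)

lemma op_mul (b b' : H →L[ℂ] H) (w w' : Mon Y) (x : L2 Y H) :
    op b w (op b' w' x) = op (b ∘L b') (w * w') x := by
  ext y
  simp [ec_add, smul_smul]

lemma op_sub (b b' : H →L[ℂ] H) (w : Mon Y) (x : L2 Y H) :
    op (b - b') w x = op b w x - op b' w x := by
  ext y
  simp [smul_sub]

lemma op_one (x : L2 Y H) : op (1 : H →L[ℂ] H) (1 : Mon Y) x = x := by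
  ext y
  simp

lemma norm_op_one (w : Mon Y) (x : L2 Y H) : ‖op (1 : H →L[ℂ] H) w x‖ = ‖x‖ := by
  refine (sq_eq_sq₀ (by positivity) (by positivity)).1 ?_
  rw [norm_sq_op, L2_norm_sq]
  simp

end Op

/-- The functionals of exact level `j`. -/
def Y (j : ℕ) : Type := {l : ℕ → F // l j = 1 ∧ ∀ i, j < i → l i = 0}

instance (j : ℕ) : Finite (Y j) := by
  refine Finite.of_injective (fun (l : Y j) (i : Fin j) => l.1 i) fun l l' h => ?_
  refine Subtype.ext (funext fun i => ?_)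
  rcases lt_trichotomy i j with hi | rfl | hi
  · exact congrFun h ⟨i, hi⟩
  · rw [l.2.1, l'.2.1]
  · rw [l.2.2 i hi, l'.2.2 i hi]

noncomputable instance (j : ℕ) : Fintype (Y j) := Fintype.ofFinite _

/-- The shear `l i ↦ l i + a * l (i + d)` at the positions `i ≡ r` modulo three. -/
def shr (d r : ℕ) (a : F) (l : ℕ → F) : ℕ → F :=
  fun i => l i + if i % 3 = r then a * l (i + d) else 0

lemma shr_shr {d : ℕ} (hd : d % 3 ≠ 0) (r : ℕ) (a b : F) (l : ℕ → F) :
    shr d r a (shr d r b l) = shr d r (b + a) l := by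
  funext i
  simp only [shr]
  split_ifs <;> first | omega | ring

lemma shr_zero (d r : ℕ) (l : ℕ → F) : shr d r 0 l = l := by
  funext i; simp [shr]

/-- The shear as a permutation of `Y j`. -/
def shrY (j d : ℕ) (hd : d % 3 ≠ 0) (r : ℕ) (a : F) : Equiv.Perm (Y j) where
  toFun l := ⟨shr d r a l.1, by
    have := l.2.2 (j + d) (by omega)
    simp [shr, l.2.1, this], fun i hi => by simp [shr, l.2.2 i hi, l.2.2 (i + d) (by omega)]⟩
  invFun l := ⟨shr d r (-a) l.1, by
    have := l.2.2 (j + d) (by omega)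
    simp [shr, l.2.1, this], fun i hi => by simp [shr, l.2.2 i hi, l.2.2 (i + d) (by omega)]⟩
  left_inv l := Subtype.ext (by simp [shr_shr hd, shr_zero])
  right_inv l := Subtype.ext (by simp [shr_shr hd, shr_zero])

@[simp] lemma shrY_val (j d : ℕ) (hd : d % 3 ≠ 0) (r : ℕ) (a : F) (l : Y j) :
    (shrY j d hd r a l).1 = shr d r a l.1 := rfl

/-- The four families acting on `Y j`. -/
def XY (j : ℕ) (i : Fin 4) (a : F) : Mon (Y j) :=
  if i = 3 then ⟨fun l => a * l.1 0, Equiv.refl _⟩ else ⟨0, shrY j 1 (by norm_num) i a⟩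

/-- The energy of `x ∈ ℓ²(Y j; H)` for the operators `a i c ⊗ XY j i c`. -/
noncomputable def EnY {H : Type*} [NormedAddCommGroup H] [InnerProductSpace ℂ H]
    (a : Fin 4 → F → H →L[ℂ] H) (j : ℕ) (x : L2 (Y j) H) : ℝ :=
  En (fun i c => op (a i c) (XY j i c)) x

end Crest.Agent.R73
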