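import Crest.Agent.R73.HS
import Crest.Agent.R73.Cuntz

/-! # Row 73: no almost invariant vectors at high level -/

set_option autoImplicit false

open scoped InnerProductSpace
open Filter Topology

namespace Crest.Agent.R73

open Crest.Agent.Lib.CStarPure

theorem end_bound {O : Type} [CStarAlgebra O] [Nontrivial O] {s₁ s₂ : O} (h1 : star s₁ * s₁ = 1)
    (h2 : star s₂ * s₂ = 1) (h3 : s₁ * star s₁ + s₂ * star s₂ = 1)
    (hgen : (StarAlgebra.adjoin ℂ ({s₁, s₂} : Set O)).topologicalClosure = ⊤)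
    {H : Type} [NormedAddCommGroup H] [InnerProductSpace ℂ H] [CompleteSpace H]
    (π : O →⋆ₐ[ℂ] (H →L[ℂ] H)) (y : Fin 4 → F → O) (hy : ∀ i c, ‖y i c‖ ≤ 1 + 1 / 10 ^ 4) :
    ∃ j, ∀ x : L2 (Y j) H, (1 / 10 ^ 4) ^ 2 * ‖x‖ ^ 2 ≤ EnY (fun i c => π (y i c)) j x := by
  obtain ⟨I, _, b, J, hJ, hb, happ⟩ := cpap h1 h2 h3 hgen (fun p : Fin 4 × F => y p.1 p.2)
    (ε := 1 / 10 ^ 4) (by positivity)
  refine ⟨3 * 11 ^ (2 * Fintype.card I), fun x => ?_⟩
  generalize hj : 3 * 11 ^ (2 * Fintype.card I) = j at x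
  by_contra hlt
  push Not at hlt
  have hxpos : 0 < ‖x‖ ^ 2 := by
    have := (En_nonneg _ _).trans_lt hlt
    linarith
  let z : I → L2 (Y j) H := fun k => op (π (J k)) 1 x
  have hkey : ∀ (w : Mon (Y j)) (c : I → I → ℂ),
      ∑ k, ∑ k', c k k' * ⟪z k, op (1 : H →L[ℂ] H) w (z k')⟫_ℂ =
        ⟪x, op (π (∑ k, ∑ k', c k k' • (star (J k) * J k'))) w x⟫_ℂ := fun w c => by
    simp only [z, PiLp.inner_apply, op_apply, Mon.one_ph, ec_zero, one_smul, Mon.one_pm,
      one_apply_eq_self, inner_smul_right, map_sum, map_smul, sum_apply, smul_apply, inner_sum,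
      inner_rep_rep, Finset.mul_sum]
    symm
    rw [Finset.sum_comm]
    refine Finset.sum_congr rfl fun k _ => ?_
    rw [Finset.sum_comm]
    refine Finset.sum_congr rfl fun k' _ => Finset.sum_congr rfl fun l _ => ?_
    ring
  have hz : ∑ k, ‖z k‖ ^ 2 = ‖x‖ ^ 2 := by
    have h4 : ∑ k, ⟪z k, z k⟫_ℂ = ⟪x, x⟫_ℂ := by
      simp only [z, PiLp.inner_apply, op_apply, Mon.one_ph, ec_zero, one_smul, Mon.one_pm,
        inner_rep_rep]
      rw [Finset.sum_comm]
      refine Finset.sum_congr rfl fun l _ => ?_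
      rw [← inner_sum, ← sum_apply, ← map_sum, hJ, map_one, one_apply_eq_self]
    have h5 := congrArg Complex.re h4
    rw [Complex.re_sum] at h5
    refine Eq.trans ?_ (h5.trans (inner_self_eq_norm_sq (𝕜 := ℂ) _))
    exact Finset.sum_congr rfl fun k _ => (inner_self_eq_norm_sq (𝕜 := ℂ) _).symm
  have h6 := hs_bound (fun i c => b (i, c)) (β := 1 + 2 / 10 ^ 4) (by positivity)
    (fun i c v w => (hb (i, c) v w).trans (mul_le_mul_of_nonneg_right (by linarith [hy i c])
      (mul_nonneg (norm_nonneg _) (norm_nonneg _)))) hj.le z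
  simp only [hkey, hz, Complex.re_sum] at h6
  have h7 : ∀ i c, (1 - 2 / 10 ^ 4) * ‖x‖ ^ 2 ≤
      (⟪x, op (π (∑ k, ∑ k', b (i, c) k k' • (star (J k) * J k'))) (XY j i c) x⟫_ℂ).re := by
    intro i c
    set y' := ∑ k, ∑ k', b (i, c) k k' • (star (J k) * J k') with hy'
    have h8 : ‖op (π (y i c)) (XY j i c) x - x‖ ≤ 1 / 10 ^ 4 * ‖x‖ := by
      refine (sq_le_sq₀ (norm_nonneg _) (mul_nonneg (by norm_num) (norm_nonneg _))).1 ?_
      rw [mul_pow]
      exact (le_En (fun i c => op (π (y i c)) (XY j i c)) x i c).trans hlt.le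
    have h9 : ‖op (π (y i c) - π y') (XY j i c) x‖ ≤ 1 / 10 ^ 4 * ‖x‖ := by
      refine (norm_op_apply_le _ _ _).trans (mul_le_mul_of_nonneg_right ?_ (norm_nonneg _))
      rw [← map_sub]
      exact (NonUnitalStarAlgHom.norm_apply_le π _).trans (happ (i, c))
    have h10 : op (π y') (XY j i c) x = x + ((op (π (y i c)) (XY j i c) x - x) -
        op (π (y i c) - π y') (XY j i c) x) := by
      rw [op_sub]; abel
    have h11 := (norm_sub_le _ _).trans (add_le_add h8 h9)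
    have h12 := (Complex.abs_re_le_norm _).trans ((norm_inner_le_norm (𝕜 := ℂ) x _).trans
      (mul_le_mul_of_nonneg_left h11 (norm_nonneg x)))
    rw [h10, inner_add_right, Complex.add_re]
    have h13 : (⟪x, x⟫_ℂ).re = ‖x‖ ^ 2 := inner_self_eq_norm_sq (𝕜 := ℂ) _
    have h14 := (abs_le.1 h12).1
    rw [h13]
    linarith
  have h15 := (Finset.sum_le_sum fun i (_ : i ∈ Finset.univ) =>
    Finset.sum_le_sum fun c (_ : c ∈ Finset.univ) => h7 i c).trans h6
  simp only [Finset.sum_const, Finset.card_univ, ZMod.card, Fintype.card_fin, nsmul_eq_mul] at h15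
  push_cast at h15
  linarith

end Crest.Agent.R73
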