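import Crest.Agent.R73.Defs

/-! # Row 73: the group -/

set_option autoImplicit false

open scoped InnerProductSpace
open Filter Topology

namespace Crest.Agent.R73

/-- The character of the subgroup generated by the four families. -/
noncomputable def chi (i : Fin 4) (c : F) : ℂ := if i = 3 then ec c else 1

namespace Gam

section Shift
variable {ι : Type}

/-- `ℓ²(ι)`. -/
abbrev LL (ι : Type) : Type := lp (fun _ : ι => ℂ) 2

lemma lp2_summable (ξ : LL ι) : Summable fun i => ‖ξ i‖ ^ 2 := by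
  have := (lp.memℓp ξ).summable (by norm_num)
  simpa using this

lemma lp2_norm_sq (ξ : LL ι) : ‖ξ‖ ^ 2 = ∑' i, ‖ξ i‖ ^ 2 := by
  have := lp.norm_rpow_eq_tsum (p := 2) (by norm_num) ξ
  simpa using this

/-- Reindexing as a linear map. -/
noncomputable def shiftLin (e : ι ≃ ι) : LL ι →ₗ[ℂ] LL ι where
  toFun ξ := ⟨fun i => ξ (e i), memℓp_gen (by
    simpa [Function.comp_def] using
      (e.summable_iff (f := fun i => ‖ξ i‖ ^ 2)).mpr (lp2_summable ξ))⟩
  map_add' _ _ := lp.ext (funext fun _ => rfl)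
  map_smul' _ _ := lp.ext (funext fun _ => rfl)

lemma norm_shiftLin (e : ι ≃ ι) (ξ : LL ι) : ‖shiftLin e ξ‖ = ‖ξ‖ := by
  refine (sq_eq_sq₀ (by positivity) (by positivity)).mp ?_
  rw [lp2_norm_sq, lp2_norm_sq]
  exact e.tsum_eq (fun i => ‖ξ i‖ ^ 2)

/-- `(shift e ξ) i = ξ (e i)`. -/
noncomputable def shift (e : ι ≃ ι) : LL ι →L[ℂ] LL ι :=
  (shiftLin e).mkContinuous 1 fun ξ => by rw [norm_shiftLin, one_mul]

@[simp] lemma shift_apply (e : ι ≃ ι) (ξ : LL ι) (i : ι) : shift e ξ i = ξ (e i) := rfl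

lemma star_shift (e : ι ≃ ι) : star (shift e) = shift e.symm := by
  rw [ContinuousLinearMap.star_eq_adjoint]
  symm
  rw [ContinuousLinearMap.eq_adjoint_iff]
  intro x y
  rw [lp.inner_eq_tsum, lp.inner_eq_tsum, ← e.tsum_eq]
  simp

lemma shift_single [DecidableEq ι] (e : ι ≃ ι) (i : ι) (v : ℂ) :
    shift e (lp.single (E := fun _ : ι => ℂ) 2 i v) = lp.single 2 (e.symm i) v := by
  refine lp.ext (funext fun k => ?_)
  rw [shift_apply]
  by_cases hk : k = e.symm i
  · subst hk; simp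
  · rw [lp.single_apply_ne _ _ _ hk, lp.single_apply_ne]
    intro h; exact hk (by rw [← h]; simp)

/-- The permutation representation. -/
noncomputable def permRep : Equiv.Perm ι →* unitary (LL ι →L[ℂ] LL ι) where
  toFun g := ⟨shift g.symm, by
    rw [Unitary.mem_iff, star_shift]
    constructor <;> (ext ξ i; simp)⟩
  map_one' := by ext ξ i; rfl
  map_mul' g h := by ext ξ i; rfl

end Shift

/-- The set on which the group acts. -/
abbrev Om : Type := ℤ × (ℕ → F)

/-- Shears. -/
def shf (d : ℕ) (r : ℤ) (a : F) (p : Om) : Om :=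
  (p.1, fun n => p.2 n + if (p.1 - 1 - d - n - r) % 3 = 0 then a * p.2 (n + d) else 0)

/-- Translations. -/
def trf (i : ℤ) (a : F) (p : Om) : Om :=
  (p.1, fun n => p.2 n + if (n : ℤ) = p.1 - 1 - i then a else 0)

lemma shf_shf {d : ℕ} (hd : d % 3 ≠ 0) (r : ℤ) (a b : F) (p : Om) :
    shf d r a (shf d r b p) = shf d r (a + b) p := by
  refine Prod.ext rfl (funext fun n => ?_)
  simp only [shf, Nat.cast_add]
  split_ifs <;> first | omega | ring

lemma trf_trf (i : ℤ) (a b : F) (p : Om) : trf i a (trf i b p) = trf i (a + b) p := by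
  refine Prod.ext rfl (funext fun n => ?_)
  simp only [trf]
  split_ifs <;> ring

lemma shf_zero (d : ℕ) (r : ℤ) (p : Om) : shf d r 0 p = p := by simp [shf]

lemma trf_zero (i : ℤ) (p : Om) : trf i 0 p = p := by simp [trf]

/-- Shears as permutations. -/
def sh (d : ℕ) (hd : d % 3 ≠ 0) (r : ℤ) (a : F) : Equiv.Perm Om where
  toFun := shf d r a
  invFun := shf d r (-a)
  left_inv p := by simp [shf_shf hd, shf_zero]
  right_inv p := by simp [shf_shf hd, shf_zero]

/-- Translations as permutations. -/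
def tr (i : ℤ) (a : F) : Equiv.Perm Om where
  toFun := trf i a
  invFun := trf i (-a)
  left_inv p := by simp [trf_trf, trf_zero]
  right_inv p := by simp [trf_trf, trf_zero]

/-- The stable letter. -/
def tt : Equiv.Perm Om where
  toFun p := (p.1 + 1, p.2)
  invFun p := (p.1 - 1, p.2)
  left_inv p := by simp
  right_inv p := by simp

lemma sh_apply (d : ℕ) (hd : d % 3 ≠ 0) (r : ℤ) (a : F) (p : Om) : sh d hd r a p = shf d r a p := rfl
lemma tr_apply (i : ℤ) (a : F) (p : Om) : tr i a p = trf i a p := rfl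
lemma tt_apply (p : Om) : tt p = (p.1 + 1, p.2) := rfl

lemma sh_fam (d : ℕ) (hd : d % 3 ≠ 0) (r : ℤ) : IsFam (sh d hd r) := fun a b =>
  Equiv.ext fun p => (shf_shf hd r a b p).symm

lemma tr_fam (i : ℤ) : IsFam (tr i) := fun a b => Equiv.ext fun p => (trf_trf i a b p).symm

/-- Checks an identity between products of the generators. -/
macro "gam_tac" : tactic => `(tactic|
  (refine Equiv.ext fun p => Prod.ext rfl (funext fun n => ?_)
   simp only [Equiv.Perm.mul_apply, sh_apply, tr_apply, tt_apply, shf, trf, add_assoc,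
     Nat.reduceAdd, Nat.cast_add, Nat.cast_one, Nat.cast_ofNat]
   split_ifs <;> first | omega | ring))

lemma heis_sh (r r' : ℤ) (hr' : (r' - r - 1) % 3 = 0) :
    Heis (sh 1 (by norm_num) r) (sh 1 (by norm_num) r') := by
  refine ⟨fun c => sh 2 (by norm_num) r (-c), fun a b => ?_, fun a b => ?_, fun a b => ?_,
    fun a b => ?_⟩
  · simp only [neg_add, sh_fam 2 _ r (-a) (-b)]
  all_goals gam_tac

lemma heis_sh_tr : Heis (sh 1 (by norm_num) 0) (tr 0) := by
  refine ⟨tr 1, tr_fam 1, fun a b => ?_, fun a b => ?_, fun a b => ?_⟩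
  all_goals gam_tac

lemma heis_sh_tr' (r : ℤ) (hr : r % 3 ≠ 0) : Heis (sh 1 (by norm_num) r) (tr 0) :=
  Heis.of_comm fun a b => by gam_tac

/-- The four families. -/
def XP (i : Fin 4) : F → Equiv.Perm Om := if i = 3 then tr 0 else sh 1 (by norm_num) (i : ℕ)

lemma tsys_XP : TSys XP := by
  refine TSys.of_six (fun i => ?_) (heis_sh 0 1 rfl) (heis_sh 1 2 rfl) (heis_sh 2 0 rfl) heis_sh_tr
    (heis_sh_tr' 1 (by norm_num)) (heis_sh_tr' 2 (by norm_num))
  unfold XP
  split_ifs
  · exact tr_fam 0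
  · exact sh_fam _ _ _

lemma rel0 (a c : F) : sh 1 (by norm_num) 0 a * (tr 0 c * tt) =
    tr 0 c * tt * (tr 0 (a * c) * sh 1 (by norm_num) 2 a) := by gam_tac

lemma rel1 (r : ℤ) (hr : (r + 1) % 3 ≠ 0) (a c : F) :
    sh 1 (by norm_num) (r + 1) a * (tr 0 c * tt) = tr 0 c * tt * sh 1 (by norm_num) r a := by
  gam_tac

/-- The points of the finite orbit. -/
def pt (c : F) : Om := (1, fun n => if n = 0 then c else 0)

lemma pt_injective : Function.Injective pt := fun a b h => by
  simpa [pt] using congrFun (congrArg Prod.snd h) 0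

lemma sh_pt (r : ℤ) (a c : F) : sh 1 (by norm_num) r a (pt c) = pt c := by
  refine Prod.ext rfl (funext fun n => ?_)
  simp [sh_apply, shf, pt]

lemma tr_pt (a c : F) : tr 0 a (pt c) = pt (c + a) := by
  refine Prod.ext rfl (funext fun n => ?_)
  simp only [tr_apply, trf, pt]
  split_ifs <;> first | omega | ring

end Gam

open Gam

theorem exists_group : ∃ (Γ : Type) (_ : Group Γ) (_ : Countable Γ) (X : Fin 4 → F → Γ) (t : Γ),
    TSys X ∧ (∀ a c, X 0 a * (X 3 c * t) = X 3 c * t * (X 3 (a * c) * X 2 a)) ∧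
    (∀ a c, X 1 a * (X 3 c * t) = X 3 c * t * X 0 a) ∧
    (∀ a c, X 2 a * (X 3 c * t) = X 3 c * t * X 1 a) ∧
    ∃ (H : Type) (_ : NormedAddCommGroup H) (_ : InnerProductSpace ℂ H) (_ : CompleteSpace H)
      (w : Γ →* unitary (H →L[ℂ] H)) (ξ : H), ξ ≠ 0 ∧
      ∀ i c, chi i c • (w (X i c) : H →L[ℂ] H) ξ = ξ := by
  classical
  let gen : Option (Fin 4 × F) → Equiv.Perm Om := fun o => o.elim tt fun p => XP p.1 p.2
  let Γ : Subgroup (Equiv.Perm Om) := (FreeGroup.lift gen).range
  have hgen : ∀ o, gen o ∈ Γ := fun o => ⟨FreeGroup.of o, by simp⟩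
  have hc : Countable Γ := (FreeGroup.lift gen).rangeRestrict_surjective.countable
  let X : Fin 4 → F → Γ := fun i c => ⟨XP i c, hgen (some (i, c))⟩
  have hX : TSys X := by
    refine ⟨fun i a b => Subtype.ext (tsys_XP.fam i a b), fun i j hij => ?_⟩
    obtain ⟨Z, hZ, h1, h2, h3⟩ := tsys_XP.heis i j hij
    have hZm : ∀ c, Z c ∈ Γ := fun c => by
      have : Z c = XP i c * XP j 1 * (XP i c)⁻¹ * (XP j 1)⁻¹ := by
        rw [h3, mul_one]; group
      rw [this]
      exact Γ.mul_mem (Γ.mul_mem (Γ.mul_mem (X i c).2 (X j 1).2) (Γ.inv_mem (X i c).2))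
        (Γ.inv_mem (X j 1).2)
    exact ⟨fun c => ⟨Z c, hZm c⟩, fun a b => Subtype.ext (hZ a b), fun a b => Subtype.ext (h1 a b),
      fun a b => Subtype.ext (h2 a b), fun a b => Subtype.ext (h3 a b)⟩
  refine ⟨Γ, inferInstance, hc, X, ⟨tt, hgen none⟩, hX, fun a c => Subtype.ext (rel0 a c),
    fun a c => Subtype.ext (rel1 0 (by norm_num) a c),
    fun a c => Subtype.ext (rel1 1 (by norm_num) a c), LL Om, inferInstance, inferInstance,
    inferInstance, permRep.comp Γ.subtype, ∑ c, lp.single 2 (pt c) (ec c), fun h => ?_,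
    fun i a => ?_⟩
  · have := congrArg (fun ξ : LL Om => ξ (pt 0)) h
    simp only [lp.coeFn_sum, Finset.sum_apply, lp.coeFn_zero, Pi.zero_apply] at this
    rw [Finset.sum_eq_single 0 (fun c _ hc => lp.single_apply_ne _ _ _ fun h =>
      hc (pt_injective h).symm) (by simp)] at this
    simp at this
  · change chi i a • shift (XP i a).symm _ = _
    simp only [map_sum, shift_single, Equiv.symm_symm, chi, XP]
    split_ifs
    · simp only [tr_pt, Finset.smul_sum]
      rw [← Equiv.sum_comp (Equiv.addRight a) fun c => (lp.single 2 (pt c) (ec c) : LL Om)]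
      refine Finset.sum_congr rfl fun c _ => ?_
      rw [← lp.single_smul, Equiv.coe_addRight, ec_add, smul_eq_mul, mul_comm]
    · simp only [sh_pt, one_smul]

end Crest.Agent.R73
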