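import Crest.Agent.R73.Defs

/-! # Row 73: the induction step -/

set_option autoImplicit false

open scoped InnerProductSpace
open Filter Topology

namespace Crest.Agent.R73

section
variable {H : Type*} [NormedAddCommGroup H] [InnerProductSpace ℂ H]

lemma parseval (w : F → H) : ∑ a, ‖∑ c, ec (c * a) • w c‖ ^ 2 = 11 * ∑ c, ‖w c‖ ^ 2 := by
  have h1 : ∑ a, ⟪∑ c, ec (c * a) • w c, ∑ c, ec (c * a) • w c⟫_ℂ = 11 * ∑ c, ⟪w c, w c⟫_ℂ := by
    simp only [sum_inner, inner_sum, inner_smul_left, inner_smul_right, ← ec_neg, Finset.mul_sum,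
      ← mul_assoc, ← ec_add]
    rw [Finset.sum_comm]
    refine Finset.sum_congr rfl fun c _ => ?_
    rw [Finset.sum_comm, Finset.sum_eq_single c]
    · simp [ZMod.card]
    · intro c' _ hc'
      rw [← Finset.sum_mul]
      have : ∀ a : F, c * a + -(c' * a) = a * (c - c') := fun a => by ring
      simp only [this, sum_ec_mul, sub_eq_zero, hc'.symm, if_false, zero_mul]
    · simp
  have h2 := congrArg Complex.re h1
  simp only [Complex.re_sum, inner_self_eq_norm_sq_to_K, Complex.coe_algebraMap] at h2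
  simpa [← Complex.ofReal_pow] using h2

/-- Removing the first coordinate. -/
def tail {j : ℕ} (l : Y (j + 1)) : Y j :=
  ⟨fun i => l.1 (i + 1), l.2.1, fun i hi => l.2.2 (i + 1) (by omega)⟩

/-- `Y (j + 1) ≃ F × Y j`. -/
def splitY (j : ℕ) : Y (j + 1) ≃ F × Y j where
  toFun l := (l.1 0, tail l)
  invFun p := ⟨fun i => Nat.casesOn i p.1 p.2.1, p.2.2.1, fun i hi => by
    obtain ⟨i, rfl⟩ : ∃ k, i = k + 1 := ⟨i - 1, by omega⟩
    exact p.2.2.2 i (by omega)⟩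
  left_inv l := Subtype.ext (funext fun i => by cases i <;> rfl)
  right_inv p := rfl

/-- The Fourier transform in the first coordinate. -/
noncomputable def Fo {j : ℕ} (Z : F → L2 (Y j) H) : L2 (Y (j + 1)) H :=
  WithLp.toLp 2 fun l => (1 / 11 : ℂ) • ∑ c, ec (c * l.1 0) • Z c (tail l)

lemma Fo_apply {j : ℕ} (Z : F → L2 (Y j) H) (l : Y (j + 1)) :
    Fo Z l = (1 / 11 : ℂ) • ∑ c, ec (c * l.1 0) • Z c (tail l) := rfl

lemma norm_sq_Fo {j : ℕ} (Z : F → L2 (Y j) H) : ‖Fo Z‖ ^ 2 = 1 / 11 * ∑ c, ‖Z c‖ ^ 2 := by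
  rw [L2_norm_sq, ← Equiv.sum_comp (splitY j).symm, Fintype.sum_prod_type, Finset.sum_comm]
  have : ∀ (l : Y j) (a : F), ‖Fo Z ((splitY j).symm (a, l))‖ ^ 2 =
      (1 / 11) ^ 2 * ‖∑ c, ec (c * a) • Z c l‖ ^ 2 := fun l a => by
    rw [Fo_apply, norm_smul, mul_pow]
    congr 1
    simp
  simp only [this, ← Finset.mul_sum, parseval, L2_norm_sq]
  rw [Finset.sum_comm]
  ring

lemma Fo_sub {j : ℕ} (Z Z' : F → L2 (Y j) H) : Fo Z - Fo Z' = Fo fun c => Z c - Z' c := by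
  ext l
  simp [Fo_apply, smul_sub]

lemma norm_sq_Fo_sub_le {j : ℕ} {Z Z' : F → L2 (Y j) H} {C : ℝ} (h : ∀ c, ‖Z c - Z' c‖ ≤ C) :
    ‖Fo Z - Fo Z'‖ ^ 2 ≤ C ^ 2 := by
  rw [Fo_sub, norm_sq_Fo]
  have : ∑ c, ‖Z c - Z' c‖ ^ 2 ≤ ∑ _c : F, C ^ 2 :=
    Finset.sum_le_sum fun c _ => by gcongr; exact h c
  simp only [Finset.sum_const, Finset.card_univ, ZMod.card, nsmul_eq_mul] at this
  push_cast at this
  linarith

lemma op_Fo3 {j : ℕ} (a : H →L[ℂ] H) (s : F) (Z : F → L2 (Y j) H) :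
    op a (XY (j + 1) 3 s) (Fo Z) = Fo fun c => op a 1 (Z (c - s)) := by
  ext l
  rw [Fo_apply, ← Equiv.sum_comp (Equiv.addRight s)]
  simp [XY, Fo_apply, Finset.smul_sum, smul_smul, add_mul, ec_add, mul_comm, mul_left_comm]

lemma op_Fo1 {j : ℕ} (a : H →L[ℂ] H) (s : F) (Z : F → L2 (Y j) H) :
    op a (XY (j + 1) 1 s) (Fo Z) = Fo fun c => op a (XY j 0 s) (Z c) := by
  ext l
  have : tail (shrY (j + 1) 1 (by norm_num) 1 s l) = shrY j 1 (by norm_num) 0 s (tail l) :=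
    Subtype.ext (funext fun i => by
      simp only [tail, shrY_val, shr]
      split_ifs <;> first | omega | rfl)
  simp [XY, Fo_apply, this, shr]

lemma op_Fo2 {j : ℕ} (a : H →L[ℂ] H) (s : F) (Z : F → L2 (Y j) H) :
    op a (XY (j + 1) 2 s) (Fo Z) = Fo fun c => op a (XY j 1 s) (Z c) := by
  ext l
  have : tail (shrY (j + 1) 1 (by norm_num) 2 s l) = shrY j 1 (by norm_num) 1 s (tail l) :=
    Subtype.ext (funext fun i => by
      simp only [tail, shrY_val, shr]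
      split_ifs <;> first | omega | rfl)
  simp [XY, Fo_apply, this, shr]

lemma op_Fo0 {j : ℕ} (a : H →L[ℂ] H) (s : F) (Z : F → L2 (Y j) H) :
    op a (XY (j + 1) 0 s) (Fo Z) = Fo fun c => op a (XY j 3 (s * c) * XY j 2 s) (Z c) := by
  ext l
  have : tail (shrY (j + 1) 1 (by norm_num) 0 s l) = shrY j 1 (by norm_num) 2 s (tail l) :=
    Subtype.ext (funext fun i => by
      simp only [tail, shrY_val, shr]
      split_ifs <;> first | omega | rfl)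
  have h2 : (tail l).1 0 = l.1 1 := rfl
  simp [XY, Fo_apply, this, shr, h2, mul_add, ec_add, smul_smul, mul_left_comm, mul_assoc]

lemma step_aux {Y : Type*} [Fintype Y] (a a' b : H →L[ℂ] H) (w : Mon Y) (x : L2 Y H) {η C : ℝ}
    (h : ‖a ∘L b - b ∘L a'‖ ≤ η) (hb : ‖b‖ ≤ 2) (hx : ‖op a' w x - x‖ ≤ C) :
    ‖op a w (op b 1 x) - op b 1 x‖ ≤ η * ‖x‖ + 2 * C := by
  have : op a w (op b 1 x) - op b 1 x =
      op (a ∘L b - b ∘L a') w x + op b 1 (op a' w x - x) := by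
    rw [op_sub, map_sub, op_mul, op_mul, mul_one, one_mul]
    abel
  rw [this]
  refine (norm_add_le _ _).trans (add_le_add ?_ ?_)
  · exact (norm_op_apply_le _ _ _).trans (by gcongr)
  · exact (norm_op_apply_le _ _ _).trans (by gcongr)

end

/-- Induction from level `j` to level `j + 1`:
`z l = (1/11) ∑_c ec (c * l 0) • b c (x (tail l))`. -/
theorem step {H : Type*} [NormedAddCommGroup H] [InnerProductSpace ℂ H]
    (a : Fin 4 → F → H →L[ℂ] H) (b : F → H →L[ℂ] H) {η : ℝ} (ha : ∀ i c, ‖a i c‖ ≤ 2)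
    (hb : ∀ c, ‖b c‖ ≤ 2) (hb' : ∀ c x, ‖x‖ ^ 2 ≤ 2 * ‖b c x‖ ^ 2)
    (h0 : ∀ s c, ‖a 0 s ∘L b c - b c ∘L (a 3 (s * c) ∘L a 2 s)‖ ≤ η)
    (h1 : ∀ s c, ‖a 1 s ∘L b c - b c ∘L a 0 s‖ ≤ η)
    (h2 : ∀ s c, ‖a 2 s ∘L b c - b c ∘L a 1 s‖ ≤ η)
    (h3 : ∀ s c, ‖a 3 s ∘L b c - b (s + c)‖ ≤ η) {j : ℕ} (x : L2 (Y j) H) {θ : ℝ} (hθ : 0 ≤ θ)
    (hx : EnY a j x ≤ θ ^ 2 * ‖x‖ ^ 2) :
    ∃ z : L2 (Y (j + 1)) H, ‖x‖ ^ 2 ≤ 2 * ‖z‖ ^ 2 ∧ ‖z‖ ≤ 2 * ‖x‖ ∧
      EnY a (j + 1) z ≤ 44 * ((η + 6 * θ) ^ 2 * ‖x‖ ^ 2) := by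
  have hx' : ∀ i c, ‖op (a i c) (XY j i c) x - x‖ ≤ θ * ‖x‖ := fun i c => by
    refine (sq_le_sq₀ (by positivity) (by positivity)).1 ?_
    rw [mul_pow]
    exact (le_En (fun i c => op (a i c) (XY j i c)) x i c).trans hx
  have hθx : 0 ≤ θ * ‖x‖ := by positivity
  refine ⟨Fo fun c => op (b c) 1 x, ?_, ?_, En_le fun i s => ?_⟩
  · rw [norm_sq_Fo]
    have : ∑ _c : F, ‖x‖ ^ 2 ≤ ∑ c, 2 * ‖op (b c) 1 x‖ ^ 2 := Finset.sum_le_sum fun c _ => by
      rw [norm_sq_op, L2_norm_sq, Finset.mul_sum]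
      exact Finset.sum_le_sum fun y _ => hb' _ _
    simp only [Finset.sum_const, Finset.card_univ, ZMod.card, nsmul_eq_mul,
      ← Finset.mul_sum] at this
    push_cast at this
    linarith
  · refine (sq_le_sq₀ (by positivity) (by positivity)).1 ?_
    have := norm_sq_Fo_sub_le (Z := fun c => op (b c) 1 x) (Z' := fun _ => 0) (C := 2 * ‖x‖)
      fun c => by
        rw [sub_zero]
        exact (norm_op_apply_le _ _ _).trans (by gcongr; exact hb c)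
    rwa [Fo_sub, funext fun c => sub_zero _] at this
  · rw [← mul_pow]
    fin_cases i
    · change ‖op (a 0 s) (XY (j + 1) 0 s) _ - _‖ ^ 2 ≤ _
      rw [op_Fo0]
      refine norm_sq_Fo_sub_le fun c => ?_
      refine (step_aux _ _ _ _ x (h0 s c) (hb c) (C := 3 * (θ * ‖x‖)) ?_).trans_eq (by ring)
      have : op (a 3 (s * c) ∘L a 2 s) (XY j 3 (s * c) * XY j 2 s) x - x =
          op (a 3 (s * c)) (XY j 3 (s * c)) (op (a 2 s) (XY j 2 s) x - x) +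
            (op (a 3 (s * c)) (XY j 3 (s * c)) x - x) := by
        rw [map_sub, op_mul]; abel
      rw [this]
      refine (norm_add_le _ _).trans ?_
      have h4 := (norm_op_apply_le (a 3 (s * c)) (XY j 3 (s * c))
        (op (a 2 s) (XY j 2 s) x - x)).trans
        (mul_le_mul (ha _ _) (hx' 2 s) (norm_nonneg _) (by norm_num))
      linarith [hx' 3 (s * c)]
    · change ‖op (a 1 s) (XY (j + 1) 1 s) _ - _‖ ^ 2 ≤ _
      rw [op_Fo1]
      refine norm_sq_Fo_sub_le fun c => ?_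
      exact (step_aux _ _ _ _ x (h1 s c) (hb c) (hx' 0 s)).trans (by linarith)
    · change ‖op (a 2 s) (XY (j + 1) 2 s) _ - _‖ ^ 2 ≤ _
      rw [op_Fo2]
      refine norm_sq_Fo_sub_le fun c => ?_
      exact (step_aux _ _ _ _ x (h2 s c) (hb c) (hx' 1 s)).trans (by linarith)
    · change ‖op (a 3 s) (XY (j + 1) 3 s) _ - _‖ ^ 2 ≤ _
      rw [op_Fo3]
      refine norm_sq_Fo_sub_le fun c => ?_
      have h4 := h3 s (c - s)
      rw [add_sub_cancel] at h4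
      rw [op_mul, mul_one, ← op_sub]
      refine (norm_op_apply_le _ _ _).trans ?_
      have : ‖a 3 s ∘L b (c - s) - b c‖ * ‖x‖ ≤ η * ‖x‖ := by gcongr
      linarith

end Crest.Agent.R73
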