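import Mathlib
import Crest.Prelude.Def_CStarEmbedding

/-! # Row 73: universal C⋆-algebras -/

set_option autoImplicit false

open scoped InnerProductSpace ENNReal
open Filter Topology

namespace Crest.Agent.R73

open Crest.AnalysisR.CStarEmbedding

namespace UnivAux

section Ev

variable {G : Type}

/-- evaluation of ⋆-polynomials -/
noncomputable def evF {B : Type*} [Semiring B] [Algebra ℂ B] [Star B] (w : G → B) :
    FreeAlgebra ℂ (G ⊕ G) →ₐ[ℂ] B :=
  FreeAlgebra.lift ℂ (Sum.elim w fun g => star (w g))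

@[simp] lemma evF_inl {B : Type*} [Semiring B] [Algebra ℂ B] [Star B] (w : G → B) (g : G) :
    evF w (FreeAlgebra.ι ℂ (Sum.inl g)) = w g := by simp [evF]

@[simp] lemma evF_inr {B : Type*} [Semiring B] [Algebra ℂ B] [Star B] (w : G → B) (g : G) :
    evF w (FreeAlgebra.ι ℂ (Sum.inr g)) = star (w g) := by simp [evF]

lemma map_evF {B C : Type*} [Semiring B] [Algebra ℂ B] [Star B] [Semiring C] [Algebra ℂ C] [Star C]
    (φ : B →⋆ₐ[ℂ] C) (w : G → B) (x : FreeAlgebra ℂ (G ⊕ G)) :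
    φ (evF w x) = evF (fun g => φ (w g)) x := by
  have : (φ : B →ₐ[ℂ] C).comp (evF w) = evF fun g => φ (w g) := by
    refine FreeAlgebra.hom_ext (funext fun g => ?_)
    rcases g with g | g
    · simp
    · simp [map_star]
  exact DFunLike.congr_fun this x

lemma mem_adjoin_iff {B : Type*} [Ring B] [StarRing B] [Algebra ℂ B] [StarModule ℂ B] (w : G → B)
    {d : B} : d ∈ StarAlgebra.adjoin ℂ (Set.range w) ↔ ∃ x, evF w x = d := by
  constructor
  · intro hd
    have : d ∈ Algebra.adjoin ℂ (Set.range w ∪ star (Set.range w)) := by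
      rw [← StarAlgebra.adjoin_toSubalgebra]; exact hd
    have h2 : Algebra.adjoin ℂ (Set.range w ∪ star (Set.range w)) ≤ (evF w).range := by
      refine Algebra.adjoin_le ?_
      rintro x (⟨g, rfl⟩ | hx)
      · exact ⟨_, evF_inl w g⟩
      · obtain ⟨g, hg⟩ := Set.mem_star.1 hx
        exact ⟨FreeAlgebra.ι ℂ (Sum.inr g), by simp [hg]⟩
    exact h2 this
  · rintro ⟨x, rfl⟩
    induction x using FreeAlgebra.induction with
    | grade0 r => rw [AlgHom.commutes]; exact StarSubalgebra.algebraMap_mem _ r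
    | grade1 g =>
      rcases g with g | g
      · rw [evF_inl]; exact StarAlgebra.subset_adjoin ℂ _ ⟨g, rfl⟩
      · rw [evF_inr]; exact star_mem (StarAlgebra.subset_adjoin ℂ _ ⟨g, rfl⟩)
    | mul a b ha hb => rw [map_mul]; exact mul_mem ha hb
    | add a b ha hb => rw [map_add]; exact add_mem ha hb

/-- the graph trick -/
lemma exists_hom {A B : Type*} [CStarAlgebra A] [CStarAlgebra B] (v : G → A) (w : G → B)
    (hv : (StarAlgebra.adjoin ℂ (Set.range v)).topologicalClosure = ⊤)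
    (h : ∀ x, ‖evF w x‖ ≤ ‖evF v x‖) : ∃ φ : A →⋆ₐ[ℂ] B, ∀ g, φ (v g) = w g := by
  let D0 : StarSubalgebra ℂ (A × B) := StarAlgebra.adjoin ℂ (Set.range fun g => (v g, w g))
  let D := D0.topologicalClosure
  have hcl : IsClosed (D : Set (A × B)) := D0.isClosed_topologicalClosure
  have hD : ∀ d ∈ D, ‖d.2‖ ≤ ‖d.1‖ := by
    intro d hd
    have hc : IsClosed {d : A × B | ‖d.2‖ ≤ ‖d.1‖} := isClosed_le (by fun_prop) (by fun_prop)
    refine closure_minimal (s := (D0 : Set (A × B))) (fun e he => ?_) hc hd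
    obtain ⟨x, rfl⟩ := (mem_adjoin_iff _).1 he
    have h1 := map_evF (StarAlgHom.fst ℂ A B) (fun g => (v g, w g)) x
    have h2 := map_evF (StarAlgHom.snd ℂ A B) (fun g => (v g, w g)) x
    change ‖StarAlgHom.snd ℂ A B _‖ ≤ ‖StarAlgHom.fst ℂ A B _‖
    rw [h1, h2]
    exact h x
  let f : D →⋆ₐ[ℂ] A := (StarAlgHom.fst ℂ A B).comp D.subtype
  have hf : ∀ d : D, ‖f d‖ = ‖d‖ := fun d => by
    change ‖d.1.1‖ = ‖d.1‖
    rw [Prod.norm_def, max_eq_left (hD d.1 d.2)]
  have hiso : Isometry f := AddMonoidHomClass.isometry_of_norm f hf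
  have : CompleteSpace D := hcl.completeSpace_coe
  have hmem : ∀ g, (v g, w g) ∈ D := fun g =>
    D0.le_topologicalClosure (StarAlgebra.subset_adjoin ℂ _ ⟨g, rfl⟩)
  have hsurj : Function.Surjective f := by
    have h1 : IsClosed (f.range : Set A) := hiso.isClosedEmbedding.isClosed_range
    have h2 : StarAlgebra.adjoin ℂ (Set.range v) ≤ f.range := by
      refine StarAlgebra.adjoin_le ?_
      rintro _ ⟨g, rfl⟩
      exact ⟨⟨_, hmem g⟩, rfl⟩
    have h3 := StarSubalgebra.topologicalClosure_minimal h2 h1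
    rw [hv] at h3
    intro a
    exact h3 (StarSubalgebra.mem_top (x := a))
  let e := StarAlgEquiv.ofBijective f ⟨hiso.injective, hsurj⟩
  refine ⟨((StarAlgHom.snd ℂ A B).comp D.subtype).comp (e.symm : A →⋆ₐ[ℂ] D), fun g => ?_⟩
  have : e.symm (v g) = ⟨_, hmem g⟩ := by
    rw [StarAlgEquiv.symm_apply_eq]; rfl
  change (e.symm (v g)).1.2 = w g
  rw [this]

end Ev

section Product

variable {M : Type} {R : M → Type} [∀ ρ, CStarAlgebra (R ρ)] [∀ ρ, Nontrivial (R ρ)]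

noncomputable instance instCStarAlgebraLp : CStarAlgebra (lp R ∞) where

/-- Evaluation at a model. -/
noncomputable def ev (ρ : M) : lp R ∞ →⋆ₐ[ℂ] R ρ where
  toFun x := x ρ
  map_one' := rfl
  map_mul' _ _ := rfl
  map_zero' := rfl
  map_add' _ _ := rfl
  commutes' _ := rfl
  map_star' _ := rfl

lemma norm_ev_le (ρ : M) (x : lp R ∞) : ‖ev ρ x‖ ≤ ‖x‖ :=
  lp.norm_apply_le_norm ENNReal.top_ne_zero x ρ

lemma ev_ext {x y : lp R ∞} (h : ∀ ρ, ev ρ x = ev ρ y) : x = y := lp.ext (funext h)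

lemma exists_prod {G : Type} (w : ∀ ρ, G → R ρ) (hw : ∀ ρ g, ‖w ρ g‖ ≤ 1) :
    ∃ (A : Type) (_ : CStarAlgebra A) (v : G → A),
      (StarAlgebra.adjoin ℂ (Set.range v)).topologicalClosure = ⊤ ∧
      (∀ x, (∀ ρ, evF (w ρ) x = 0) → evF v x = 0) ∧ ∀ ρ x, ‖evF (w ρ) x‖ ≤ ‖evF v x‖ := by
  let V : G → lp R ∞ := fun g => ⟨fun ρ => w ρ g, memℓp_infty ⟨1, by
    rintro _ ⟨ρ, rfl⟩
    exact hw ρ g⟩⟩
  have hV : ∀ ρ x, ev ρ (evF V x) = evF (w ρ) x := fun ρ x => map_evF (ev ρ) V x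
  let A0 : StarSubalgebra ℂ (lp R ∞) := StarAlgebra.adjoin ℂ (Set.range V)
  let A := A0.topologicalClosure
  have hcl : IsClosed (A : Set (lp R ∞)) := A0.isClosed_topologicalClosure
  have hVA : ∀ g, V g ∈ A := fun g =>
    A0.le_topologicalClosure (StarAlgebra.subset_adjoin ℂ _ ⟨g, rfl⟩)
  let v : G → A := fun g => ⟨V g, hVA g⟩
  have hv : ∀ x, ((evF v x : A) : lp R ∞) = evF V x := fun x => map_evF A.subtype v x
  refine ⟨A, StarSubalgebra.cstarAlgebra A, v, ?_, fun x hx => ?_, fun ρ x => ?_⟩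
  · rw [eq_top_iff]
    intro a _
    change a ∈ closure (StarAlgebra.adjoin ℂ (Set.range v) : Set A)
    rw [closure_subtype]
    refine closure_mono (s := (A0 : Set (lp R ∞))) (fun d hd => ?_) a.2
    obtain ⟨x, rfl⟩ := (mem_adjoin_iff _).1 hd
    exact ⟨evF v x, (mem_adjoin_iff _).2 ⟨x, rfl⟩, hv x⟩
  · refine Subtype.ext (ev_ext fun ρ => ?_)
    rw [hv, hV, hx]
    rfl
  · rw [← hV, ← hv]
    exact norm_ev_le _ _

end Product

theorem exists_univ {G : Type} (R : Set (FreeAlgebra ℂ (G ⊕ G)))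
    (hb : ∀ (B : Type) [CStarAlgebra B] (w : G → B), (∀ r ∈ R, evF w r = 0) → ∀ g, ‖w g‖ ≤ 1) :
    ∃ (A : Type) (_ : CStarAlgebra A) (v : G → A), (∀ r ∈ R, evF v r = 0) ∧
      (StarAlgebra.adjoin ℂ (Set.range v)).topologicalClosure = ⊤ ∧
      ∀ (B : Type) [CStarAlgebra B] (w : G → B), (∀ r ∈ R, evF w r = 0) →
        ∃ φ : A →⋆ₐ[ℂ] B, ∀ g, φ (v g) = w g := by
  let M := {N : FreeAlgebra ℂ (G ⊕ G) → ℝ // ∃ (B : Type) (_ : CStarAlgebra B) (_ : Nontrivial B)
    (w : G → B), (∀ r ∈ R, evF w r = 0) ∧ ∀ x, N x = ‖evF w x‖}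
  choose B iB nB w hw hN using fun N : M => N.2
  obtain ⟨A, iA, v, h1, h2, h3⟩ := exists_prod (R := B) w fun ρ => hb (B ρ) (w ρ) (hw ρ)
  refine ⟨A, iA, v, fun r hr => h2 r fun ρ => hw ρ r hr, h1, fun C _ t ht => ?_⟩
  refine exists_hom v t h1 fun x => ?_
  rcases subsingleton_or_nontrivial C with hC | hC
  · rw [Subsingleton.elim (evF t x) 0, norm_zero]
    exact norm_nonneg _
  · let N : M := ⟨fun x => ‖evF t x‖, C, inferInstance, hC, t, ht, fun _ => rfl⟩
    have := hN N x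
    exact this.le.trans (h3 N x)

lemma norm_le_one {B : Type*} [CStarAlgebra B] {a : B} (h : star a * a = 1) : ‖a‖ ≤ 1 := by
  rcases subsingleton_or_nontrivial B with hB | hB
  · rw [Subsingleton.elim a 0, norm_zero]; exact zero_le_one
  · have h1 := CStarRing.norm_star_mul_self (x := a)
    rw [h, norm_one] at h1
    nlinarith [norm_nonneg a]

end UnivAux

open UnivAux

theorem exists_fullGroup (Γ : Type) [Group Γ] :
    ∃ (A : Type) (_ : CStarAlgebra A) (u : Γ →* unitary A), IsFullGroupCStar A u := by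
  let x : Γ → FreeAlgebra ℂ (Γ ⊕ Γ) := fun g => FreeAlgebra.ι ℂ (Sum.inl g)
  let y : Γ → FreeAlgebra ℂ (Γ ⊕ Γ) := fun g => FreeAlgebra.ι ℂ (Sum.inr g)
  let R : Set (FreeAlgebra ℂ (Γ ⊕ Γ)) := Set.range (fun g => y g * x g - 1) ∪
    (Set.range (fun g => x g * y g - 1) ∪ Set.range fun p : Γ × Γ => x (p.1 * p.2) - x p.1 * x p.2)
  have hR : ∀ (B : Type) [CStarAlgebra B] (w : Γ → B), (∀ r ∈ R, evF w r = 0) ↔
      (∀ g, star (w g) * w g = 1) ∧ (∀ g, w g * star (w g) = 1) ∧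
        ∀ g h, w (g * h) = w g * w h := by
    intro B _ w
    simp only [R, x, y, Set.mem_union, or_imp, forall_and, Set.forall_mem_range,
      map_sub, map_mul, map_one, evF_inl, evF_inr, sub_eq_zero, Prod.forall]
  obtain ⟨A, iA, v, h1, h2, h3⟩ := exists_univ R fun B _ w hw g =>
    norm_le_one (((hR B w).1 hw).1 g)
  obtain ⟨a1, a2, a3⟩ := (hR A v).1 h1
  refine ⟨A, iA, MonoidHom.mk' (fun g => ⟨v g, a1 g, a2 g⟩) fun g h => Subtype.ext (a3 g h),
    h2, fun B _ w => ?_⟩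
  exact h3 B (fun g => (w g : B)) ((hR B _).2
    ⟨fun g => (w g).2.1, fun g => (w g).2.2, fun g h => by simp⟩)

theorem exists_cuntz : ∃ (O : Type) (_ : CStarAlgebra O) (s₁ s₂ : O), IsCuntzTwo O s₁ s₂ := by
  let x : Bool → FreeAlgebra ℂ (Bool ⊕ Bool) := fun g => FreeAlgebra.ι ℂ (Sum.inl g)
  let y : Bool → FreeAlgebra ℂ (Bool ⊕ Bool) := fun g => FreeAlgebra.ι ℂ (Sum.inr g)
  let R : Set (FreeAlgebra ℂ (Bool ⊕ Bool)) := {y true * x true - 1, y false * x false - 1,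
    x true * y true + x false * y false - 1}
  have hR : ∀ (B : Type) [CStarAlgebra B] (w : Bool → B), (∀ r ∈ R, evF w r = 0) ↔
      star (w true) * w true = 1 ∧ star (w false) * w false = 1 ∧
        w true * star (w true) + w false * star (w false) = 1 := by
    intro B _ w
    simp only [R, x, y, Set.mem_insert_iff, Set.mem_singleton_iff, or_imp, forall_and, forall_eq,
      map_sub, map_mul, map_add, map_one, evF_inl, evF_inr, sub_eq_zero]
  obtain ⟨A, iA, v, h1, h2, h3⟩ := exists_univ R fun B _ w hw g => by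
    obtain ⟨a1, a2, -⟩ := (hR B w).1 hw
    cases g
    exacts [norm_le_one a2, norm_le_one a1]
  obtain ⟨a1, a2, a3⟩ := (hR A v).1 h1
  refine ⟨A, iA, v true, v false, a1, a2, a3, ?_, fun B _ t₁ t₂ b1 b2 b3 => ?_⟩
  · rw [← h2]
    congr 2
    ext a
    simp [or_comm]
  · obtain ⟨φ, hφ⟩ := h3 B (fun b => if b then t₁ else t₂) ((hR B _).2 ⟨b1, b2, b3⟩)
    exact ⟨φ, hφ true, hφ false⟩

end Crest.Agent.R73
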