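import Crest.Agent.R73.Ultra
import Crest.Agent.R73.Gam
import Crest.Agent.R73.Univ
import Crest.Agent.R73.Step
import Crest.Agent.R73.End

/-! # Row 73: assembly -/

set_option autoImplicit false

open scoped InnerProductSpace
open Filter Topology

namespace Crest.Agent.R73

open Crest.AnalysisR.CStarEmbedding Crest.Agent.Lib.CStarPure

section Lft
variable {ω : Ultrafilter ℕ} {A O : Type} [CStarAlgebra A] [CStarAlgebra O] {φ : ℕ → A → O}

/-- The bounded sequence `x` represents the image of `a`. -/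
def Lft (ω : Ultrafilter ℕ) (φ : ℕ → A → O) (a : A) (x : ℕ → O) : Prop :=
  (∃ C, ∀ n, ‖x n‖ ≤ C) ∧ Tendsto (fun n => ‖φ n a - x n‖) ω (𝓝 0)

lemma tendsto_of_le {f g : ℕ → ℝ} {l : Filter ℕ} (hg : Tendsto g l (𝓝 0)) (h0 : ∀ n, 0 ≤ f n)
    (h : ∀ n, f n ≤ g n) : Tendsto f l (𝓝 0) := squeeze_zero h0 h hg

lemma Lft.self (h : IsUltrapowerEmbedding ω A O φ) (a : A) : Lft ω φ a fun n => φ n a :=
  ⟨h.1 a, by simp⟩

lemma Lft.one (h : IsUltrapowerEmbedding ω A O φ) : Lft ω φ 1 fun _ => 1 :=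
  ⟨⟨_, fun _ => le_rfl⟩, h.2.2.2.2.2.1⟩

lemma Lft.add (h : IsUltrapowerEmbedding ω A O φ) {a b : A} {x y : ℕ → O} (hx : Lft ω φ a x)
    (hy : Lft ω φ b y) : Lft ω φ (a + b) fun n => x n + y n := by
  obtain ⟨⟨C, hC⟩, hx⟩ := hx
  obtain ⟨⟨D, hD⟩, hy⟩ := hy
  refine ⟨⟨C + D, fun n => (norm_add_le _ _).trans (add_le_add (hC n) (hD n))⟩, ?_⟩
  refine tendsto_of_le (by simpa using ((h.2.1 a b).add hx).add hy) (fun _ => norm_nonneg _)
    fun n => ?_
  have : φ n (a + b) - (x n + y n) =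
      (φ n (a + b) - (φ n a + φ n b)) + (φ n a - x n) + (φ n b - y n) := by abel
  rw [this]
  exact norm_add₃_le

lemma Lft.smul (h : IsUltrapowerEmbedding ω A O φ) (c : ℂ) {a : A} {x : ℕ → O}
    (hx : Lft ω φ a x) : Lft ω φ (c • a) fun n => c • x n := by
  obtain ⟨⟨C, hC⟩, hx⟩ := hx
  refine ⟨⟨‖c‖ * C, fun n => by rw [norm_smul]; gcongr; exact hC n⟩, ?_⟩
  refine tendsto_of_le (by simpa using (h.2.2.1 c a).add (hx.const_mul ‖c‖))
    (fun _ => norm_nonneg _) fun n => ?_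
  have : φ n (c • a) - c • x n = (φ n (c • a) - c • φ n a) + c • (φ n a - x n) := by
    rw [smul_sub]; abel
  rw [this, ← norm_smul]
  exact norm_add_le _ _

lemma Lft.star (h : IsUltrapowerEmbedding ω A O φ) {a : A} {x : ℕ → O}
    (hx : Lft ω φ a x) : Lft ω φ (star a) fun n => star (x n) := by
  obtain ⟨⟨C, hC⟩, hx⟩ := hx
  refine ⟨⟨C, fun n => by rw [norm_star]; exact hC n⟩, ?_⟩
  refine tendsto_of_le (by simpa using (h.2.2.2.2.1 a).add hx) (fun _ => norm_nonneg _)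
    fun n => ?_
  have : φ n (Star.star a) - Star.star (x n) =
      (φ n (Star.star a) - Star.star (φ n a)) + Star.star (φ n a - x n) := by
    rw [star_sub]; abel
  rw [this, ← norm_star (φ n a - x n)]
  exact norm_add_le _ _

lemma Lft.mul (h : IsUltrapowerEmbedding ω A O φ) {a b : A} {x y : ℕ → O} (hx : Lft ω φ a x)
    (hy : Lft ω φ b y) : Lft ω φ (a * b) fun n => x n * y n := by
  obtain ⟨⟨C, hC⟩, hx⟩ := hx
  obtain ⟨⟨D, hD⟩, hy⟩ := hy
  obtain ⟨E, hE⟩ := h.1 b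
  refine ⟨⟨C * D, fun n => (norm_mul_le _ _).trans
    (mul_le_mul (hC n) (hD n) (norm_nonneg _) ((norm_nonneg _).trans (hC n)))⟩, ?_⟩
  refine tendsto_of_le
    (by simpa using ((h.2.2.2.1 a b).add (hx.mul_const E)).add (hy.const_mul C))
    (fun _ => norm_nonneg _) fun n => ?_
  have : φ n (a * b) - x n * y n =
      (φ n (a * b) - φ n a * φ n b) + (φ n a - x n) * φ n b + x n * (φ n b - y n) := by
    noncomm_ring
  rw [this]
  refine norm_add₃_le.trans (add_le_add (add_le_add le_rfl ?_) ?_)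
  · exact (norm_mul_le _ _).trans (by gcongr; exact hE n)
  · exact (norm_mul_le _ _).trans (by gcongr; exact hC n)

lemma Lft.zero (h : IsUltrapowerEmbedding ω A O φ) : Lft ω φ 0 fun _ => 0 := by
  simpa using (Lft.one h).smul h 0

lemma Lft.sum (h : IsUltrapowerEmbedding ω A O φ) {ι : Type*} (s : Finset ι) {a : ι → A}
    {x : ι → ℕ → O} (hx : ∀ i, Lft ω φ (a i) (x i)) :
    Lft ω φ (∑ i ∈ s, a i) fun n => ∑ i ∈ s, x i n := by
  classical
  induction s using Finset.induction_on with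
  | empty => simpa using Lft.zero h
  | insert i s hi ih => simpa [Finset.sum_insert hi] using (hx i).add h ih

omit [CStarAlgebra A] in
lemma Lft.unique {a : A} {x y : ℕ → O} (hx : Lft ω φ a x) (hy : Lft ω φ a y) :
    Tendsto (fun n => ‖x n - y n‖) ω (𝓝 0) := by
  refine tendsto_of_le (by simpa using hx.2.add hy.2) (fun _ => norm_nonneg _) fun n => ?_
  have : x n - y n = -(φ n a - x n) + (φ n a - y n) := by abel
  rw [this, ← norm_neg (φ n a - x n)]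
  exact norm_add_le _ _

lemma Lft.norm (h : IsUltrapowerEmbedding ω A O φ) {a : A} {x : ℕ → O} (hx : Lft ω φ a x) :
    Tendsto (fun n => ‖x n‖) ω (𝓝 ‖a‖) := by
  have h1 : Tendsto (fun n => ‖φ n a‖ - ‖x n‖) ω (𝓝 0) :=
    squeeze_zero_norm (fun n => abs_norm_sub_norm_le _ _) hx.2
  simpa using (h.2.2.2.2.2.2 a).sub h1

end Lft

lemma En_ge_of_unit {V : Type*} [NormedAddCommGroup V] [NormedSpace ℂ V]
    (T : Fin 4 → F → V →L[ℂ] V) {δ : ℝ} (h : ∀ x, ‖x‖ = 1 → δ ≤ En (fun i c => T i c) x) (x : V) :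
    δ * ‖x‖ ^ 2 ≤ En (fun i c => T i c) x := by
  rcases eq_or_ne x 0 with rfl | hx
  · simpa using En_nonneg _ _
  have hn : 0 < ‖x‖ := norm_pos_iff.2 hx
  have h1 := h (((‖x‖⁻¹ : ℝ) : ℂ) • x) (by simp [norm_smul, hn.ne'])
  have h2 : En (fun i c => T i c) (((‖x‖⁻¹ : ℝ) : ℂ) • x) =
      (‖x‖⁻¹) ^ 2 * En (fun i c => T i c) x := by
    simp only [En, map_smul, ← smul_sub, norm_smul, mul_pow, Finset.mul_sum, Complex.norm_real,
      Real.norm_eq_abs, sq_abs]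
  rw [h2, inv_pow, ← div_eq_inv_mul, le_div_iff₀ (by positivity)] at h1
  exact h1

lemma re_inner_sum {A : Type*} [CStarAlgebra A] {H : Type*} [NormedAddCommGroup H]
    [InnerProductSpace ℂ H] [CompleteSpace H] (π : A →⋆ₐ[ℂ] (H →L[ℂ] H)) (y : Fin 4 → F → A)
    (ξ : H) : (⟪ξ, π (∑ i, ∑ c, star (y i c) * y i c) ξ⟫_ℂ).re = ∑ i, ∑ c, ‖π (y i c) ξ‖ ^ 2 := by
  simp only [map_sum, sum_apply, inner_sum, Complex.re_sum, ← inner_rep_rep]
  refine Finset.sum_congr rfl fun i _ => Finset.sum_congr rfl fun c _ => ?_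
  exact inner_self_eq_norm_sq (𝕜 := ℂ) _

lemma norm_chi (i : Fin 4) (c : F) : ‖chi i c‖ = 1 := by
  unfold chi; split_ifs <;> simp

instance : Unique (Y 0) where
  default := ⟨fun i => if i = 0 then 1 else 0, by simp, fun i hi => by simp [hi.ne']⟩
  uniq l := Subtype.ext (funext fun i => by
    rcases Nat.eq_zero_or_pos i with rfl | hi
    · simp [l.2.1]
    · simp [l.2.2 i hi, hi.ne'])

lemma EnY_zero {H : Type*} [NormedAddCommGroup H] [InnerProductSpace ℂ H]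
    (a : Fin 4 → F → H →L[ℂ] H) (ξ : H) :
    EnY a 0 (WithLp.toLp 2 fun _ => ξ) = ∑ i, ∑ c, ‖chi i c • a i c ξ - ξ‖ ^ 2 := by
  unfold EnY En
  refine Finset.sum_congr rfl fun i _ => Finset.sum_congr rfl fun c _ => ?_
  rw [L2_norm_sq, Fintype.sum_unique]
  have : ((default : Y 0).1 0) = 1 := (default : Y 0).2.1
  by_cases hi : i = 3 <;> simp [XY, chi, hi, this]

theorem no_embedding {Γ : Type} [Group Γ] {X : Fin 4 → F → Γ} {t : Γ} (hX : TSys X)
    (r0 : ∀ a c, X 0 a * (X 3 c * t) = X 3 c * t * (X 3 (a * c) * X 2 a))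
    (r1 : ∀ a c, X 1 a * (X 3 c * t) = X 3 c * t * X 0 a)
    (r2 : ∀ a c, X 2 a * (X 3 c * t) = X 3 c * t * X 1 a)
    {H₀ : Type} [NormedAddCommGroup H₀] [InnerProductSpace ℂ H₀] [CompleteSpace H₀]
    (w : Γ →* unitary (H₀ →L[ℂ] H₀)) {ξ₀ : H₀} (hξ₀ : ξ₀ ≠ 0)
    (hw : ∀ i c, chi i c • (w (X i c) : H₀ →L[ℂ] H₀) ξ₀ = ξ₀)
    {A : Type} [CStarAlgebra A] {u : Γ →* unitary A} (hA : IsFullGroupCStar A u)
    {O : Type} [CStarAlgebra O] {s₁ s₂ : O} (hO : IsCuntzTwo O s₁ s₂) (ω : Ultrafilter ℕ)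
    {φ : ℕ → A → O} (h : IsUltrapowerEmbedding ω A O φ) : False := by
  obtain ⟨ψ, hψ⟩ := hA.2 _ w
  -- the positive element of norm at least `176`
  let y₀ : Fin 4 → F → A := fun i c => chi i c • (u (X i c) : A) + 1
  have hn0 : 176 ≤ ‖∑ i, ∑ c, star (y₀ i c) * y₀ i c‖ := by
    have h1 := re_inner_sum ψ y₀ ξ₀
    have h2 : ∀ i c, ‖ψ (y₀ i c) ξ₀‖ ^ 2 = 4 * ‖ξ₀‖ ^ 2 := fun i c => by
      have : ψ (y₀ i c) ξ₀ = (2 : ℂ) • ξ₀ := by
        simp only [y₀, map_add, map_smul, hψ, map_one, add_apply,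
          smul_apply, hw, one_apply_eq_self, two_smul]
      rw [this, norm_smul]; simp; ring
    simp only [h2, Finset.sum_const, Finset.card_univ, ZMod.card, Fintype.card_fin,
      nsmul_eq_mul] at h1
    have h3 := (Complex.re_le_norm _).trans ((norm_inner_le_norm (𝕜 := ℂ) ξ₀ _).trans
      (mul_le_mul_of_nonneg_left (norm_rep_apply_le ψ (∑ i, ∑ c, star (y₀ i c) * y₀ i c) ξ₀)
        (norm_nonneg _)))
    rw [h1] at h3
    have h4 : 0 < ‖ξ₀‖ ^ 2 := by positivity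
    refine le_of_mul_le_mul_right ?_ h4
    push_cast at h3
    nlinarith
  have : Nontrivial A := by
    by_contra hA'
    rw [not_nontrivial_iff_subsingleton] at hA'
    rw [Subsingleton.elim (∑ i, ∑ c, star (y₀ i c) * y₀ i c) 0, norm_zero] at hn0
    norm_num at hn0
  have : Nontrivial O := by
    by_contra hO'
    rw [not_nontrivial_iff_subsingleton] at hO'
    have h1 := (Lft.one h).norm h
    simp only [Subsingleton.elim (1 : O) 0, norm_zero, norm_one] at h1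
    exact zero_ne_one (tendsto_nhds_unique tendsto_const_nhds h1)
  let v : ℕ → Γ → O := fun n g => φ n (u g)
  have hv : ∀ g, Lft ω φ (u g) fun n => v n g := fun g => Lft.self h _
  have hvn : ∀ g, Tendsto (fun n => ‖v n g‖) ω (𝓝 1) := fun g => by
    simpa using (hv g).norm h
  let y : ℕ → Fin 4 → F → O := fun n i c => chi i c • v n (X i c) + 1
  have hy : ∀ i c, Lft ω φ (y₀ i c) fun n => y n i c := fun i c =>
    ((hv _).smul h _).add h (Lft.one h)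
  have hh := (Lft.sum h Finset.univ fun i => Lft.sum h Finset.univ fun c =>
    ((hy i c).star h).mul h (hy i c)).norm h
  -- norming representations
  have hex : ∀ n, ∃ (H : Type) (_ : NormedAddCommGroup H) (_ : InnerProductSpace ℂ H)
      (_ : CompleteSpace H) (π : O →⋆ₐ[ℂ] (H →L[ℂ] H)) (ξ : H), ‖ξ‖ = 1 ∧
      ∑ i, ∑ c, ‖π (y n i c) ξ‖ ^ 2 = ‖∑ i, ∑ c, star (y n i c) * y n i c‖ := fun n => by
    let _ := CStarAlgebra.spectralOrder O
    have _ := CStarAlgebra.spectralOrderedRing O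
    obtain ⟨f, hf, hf'⟩ := exists_state_norm (h := ∑ i, ∑ c, star (y n i c) * y n i c)
      (Finset.sum_nonneg fun i _ => Finset.sum_nonneg fun c _ => star_mul_self_nonneg _)
    obtain ⟨H, _, _, _, π, ξ, -, h1, h2⟩ := hf.exists_gns
    refine ⟨H, inferInstance, inferInstance, inferInstance, π, ξ, h1, ?_⟩
    rw [← re_inner_sum, ← h2, hf', Complex.ofReal_re]
  choose H iH1 iH2 iH3 π ξ hξ hπ using hex
  have hπn : ∀ n x, ‖π n x‖ ≤ ‖x‖ := fun n x => NonUnitalStarAlgHom.norm_apply_le (π n) x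
  have hlim : ∀ {a : A} {x x' : ℕ → O}, Lft ω φ a x → Lft ω φ a x' →
      Tendsto (fun n => ‖π n (x n) - π n (x' n)‖) ω (𝓝 0) := fun hx hx' =>
    tendsto_of_le (hx.unique hx') (fun _ => norm_nonneg _) fun n => by
      rw [← map_sub]; exact hπn _ _
  have hiso : ∀ g, ∃ η : ℕ → ℝ, Tendsto η ω (𝓝 0) ∧
      ∀ n x, |‖π n (v n g) x‖ ^ 2 - ‖x‖ ^ 2| ≤ η n * ‖x‖ ^ 2 := fun g => by
    have h1 := ((hv g).star h).mul h (hv g)
    rw [Unitary.coe_star_mul_self] at h1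
    refine ⟨_, h1.unique (Lft.one h), fun n x => ?_⟩
    have h2 : ‖π n (v n g) x‖ ^ 2 - ‖x‖ ^ 2 =
        (⟪x, π n (star (v n g) * v n g - 1) x⟫_ℂ).re := by
      rw [map_sub, sub_apply, inner_sub_right, ← inner_rep_rep, map_one,
        one_apply_eq_self, Complex.sub_re]
      congr 1 <;> exact (inner_self_eq_norm_sq (𝕜 := ℂ) _).symm
    rw [h2]
    refine (Complex.abs_re_le_norm _).trans ((norm_inner_le_norm (𝕜 := ℂ) _ _).trans ?_)
    calc _ ≤ ‖x‖ * (‖star (v n g) * v n g - 1‖ * ‖x‖) := by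
          gcongr; exact norm_rep_apply_le _ _ _
      _ = _ := by ring
  have hR : AsymRep ω fun n g => π n (v n g) := by
    refine ⟨fun g => ?_, fun g g' => ?_, ?_, hiso⟩
    · obtain ⟨C, hC⟩ := (hv g).1
      exact ⟨C, fun n => (hπn _ _).trans (hC n)⟩
    · have h1 := (hv g).mul h (hv g')
      rw [← Submonoid.coe_mul, ← map_mul] at h1
      simpa [ContinuousLinearMap.mul_def] using hlim (hv _) h1
    · have h1 := hv 1
      rw [map_one, OneMemClass.coe_one] at h1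
      simpa using hlim h1 (Lft.one h)
  let a : ∀ n, Fin 4 → F → H n →L[ℂ] H n := fun n i c => π n (v n (X i c))
  let P : ℕ → ℕ → Prop := fun n j => ∃ x : L2 (Y j) (H n), ‖x‖ = 1 ∧ EnY (a n) j x < (1 / 10 ^ 4) ^ 2
  -- start
  have hstart : ∀ᶠ n in (ω : Filter ℕ), P n 0 := by
    have h1 : Tendsto (fun n => ∑ i, ∑ c, (2 * ‖v n (X i c)‖ ^ 2 + 2) -
        ‖∑ i, ∑ c, star (y n i c) * y n i c‖) ω
        (𝓝 (∑ _i : Fin 4, ∑ _c : F, (2 * (1 : ℝ) ^ 2 + 2) - ‖∑ i, ∑ c, star (y₀ i c) * y₀ i c‖)) :=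
      (tendsto_finsetSum _ fun i _ => tendsto_finsetSum _ fun c _ =>
        (((hvn _).pow 2).const_mul 2).add_const 2).sub hh
    filter_upwards [h1.eventually_lt_const (u := (1 / 10 ^ 4) ^ 2) (by
      simp only [Finset.sum_const, Finset.card_univ, ZMod.card, Fintype.card_fin, nsmul_eq_mul]
      push_cast
      linarith [show (0 : ℝ) < (1 / 10 ^ 4) ^ 2 by positivity])] with n hn
    refine ⟨WithLp.toLp 2 fun _ => ξ n, ?_, lt_of_le_of_lt ?_ hn⟩
    · refine (sq_eq_sq₀ (by positivity) (by positivity)).1 ?_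
      rw [L2_norm_sq, Fintype.sum_unique]
      simp [hξ]
    · rw [EnY_zero, ← hπ, ← Finset.sum_sub_distrib]
      refine Finset.sum_le_sum fun i _ => ?_
      rw [← Finset.sum_sub_distrib]
      refine Finset.sum_le_sum fun c _ => ?_
      have h2 := parallelogram_law_with_norm ℂ (chi i c • a n i c (ξ n)) (ξ n)
      have h3 : ‖chi i c • a n i c (ξ n)‖ ≤ ‖v n (X i c)‖ := by
        rw [norm_smul, norm_chi, one_mul]
        simpa [hξ] using norm_rep_apply_le (π n) (v n (X i c)) (ξ n)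
      have h4 : π n (y n i c) (ξ n) = chi i c • a n i c (ξ n) + ξ n := by simp [y, a]
      rw [h4]
      rw [hξ] at h2
      nlinarith [norm_nonneg (chi i c • a n i c (ξ n))]
  -- step
  have hev : ∀ {f : ℕ → ℝ}, Tendsto f ω (𝓝 0) → ∀ᶠ n in (ω : Filter ℕ), f n ≤ 1 / 10 ^ 4 :=
    fun hf => hf.eventually_le_const (by positivity)
  have hv2 : ∀ g, ∀ᶠ n in (ω : Filter ℕ), ‖v n g‖ ≤ 1 + 1 / 10 ^ 4 := fun g =>
    (hvn g).eventually_le_const (by norm_num)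
  have hstep : ∀ᶠ n in (ω : Filter ℕ), ∀ j, P n j → P n (j + 1) := by
    by_contra hcon
    rw [← Ultrafilter.eventually_not] at hcon
    let b : ∀ n, F → H n →L[ℂ] H n := fun n c => π n (v n (X 3 c * t))
    have g1 : ∀ᶠ n in (ω : Filter ℕ), ∀ i c, ‖a n i c‖ ≤ 2 :=
      eventually_all.2 fun i => eventually_all.2 fun c => (hv2 (X i c)).mono fun n hn =>
        (hπn _ _).trans (hn.trans (by norm_num))
    have g2 : ∀ᶠ n in (ω : Filter ℕ), ∀ c, ‖b n c‖ ≤ 2 :=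
      eventually_all.2 fun c => (hv2 (X 3 c * t)).mono fun n hn =>
        (hπn _ _).trans (hn.trans (by norm_num))
    have g3 : ∀ᶠ n in (ω : Filter ℕ), ∀ c x, ‖x‖ ^ 2 ≤ 2 * ‖b n c x‖ ^ 2 :=
      eventually_all.2 fun c => by
        obtain ⟨η, h1, h2⟩ := hiso (X 3 c * t)
        refine (hev h1).mono fun n hn x => ?_
        have h3 := (abs_le.1 (h2 n x)).1
        have h4 : η n * ‖x‖ ^ 2 ≤ 1 / 10 ^ 4 * ‖x‖ ^ 2 := by gcongr
        nlinarith [sq_nonneg ‖x‖]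
    have hm : ∀ g g', Lft ω φ (u (g * g')) fun n => v n g * v n g' := fun g g' => by
      have h1 := (hv g).mul h (hv g')
      rwa [← Submonoid.coe_mul, ← map_mul] at h1
    have g4 : ∀ᶠ n in (ω : Filter ℕ), ∀ s c,
        ‖a n 0 s ∘L b n c - b n c ∘L (a n 3 (s * c) ∘L a n 2 s)‖ ≤ 1 / 10 ^ 4 :=
      eventually_all.2 fun s => eventually_all.2 fun c => hev (by
        have h1 := (hv (X 3 c * t)).mul h (hm (X 3 (s * c)) (X 2 s))
        rw [← Submonoid.coe_mul, ← map_mul, ← r0] at h1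
        simpa [ContinuousLinearMap.mul_def] using hlim (hm _ _) h1)
    have g5 : ∀ᶠ n in (ω : Filter ℕ), ∀ s c,
        ‖a n 1 s ∘L b n c - b n c ∘L a n 0 s‖ ≤ 1 / 10 ^ 4 :=
      eventually_all.2 fun s => eventually_all.2 fun c => hev (by
        have h1 := hm (X 3 c * t) (X 0 s)
        rw [← r1] at h1
        simpa [ContinuousLinearMap.mul_def] using hlim (hm _ _) h1)
    have g6 : ∀ᶠ n in (ω : Filter ℕ), ∀ s c,
        ‖a n 2 s ∘L b n c - b n c ∘L a n 1 s‖ ≤ 1 / 10 ^ 4 :=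
      eventually_all.2 fun s => eventually_all.2 fun c => hev (by
        have h1 := hm (X 3 c * t) (X 1 s)
        rw [← r2] at h1
        simpa [ContinuousLinearMap.mul_def] using hlim (hm _ _) h1)
    have g7 : ∀ᶠ n in (ω : Filter ℕ), ∀ s c, ‖a n 3 s ∘L b n c - b n (s + c)‖ ≤ 1 / 10 ^ 4 :=
      eventually_all.2 fun s => eventually_all.2 fun c => hev (by
        have h1 := hv (X 3 (s + c) * t)
        rw [hX.fam 3 s c, mul_assoc] at h1
        have h2 := hlim (hm _ _) h1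
        rw [← mul_assoc, ← hX.fam 3 s c] at h2
        simpa [ContinuousLinearMap.mul_def] using h2)
    have key : ∀ᶠ n in (ω : Filter ℕ), ∃ j, ∃ z : L2 (Y (j + 1)) (H n), ‖z‖ ≤ 2 ∧
        (∀ x : L2 (Y (j + 1)) (H n), (1 / 10 ^ 4) ^ 2 * ‖x‖ ^ 2 ≤ EnY (a n) (j + 1) x) ∧
        1 ≤ 2 * ‖z‖ ^ 2 ∧ EnY (a n) (j + 1) z ≤ 1 / 100 := by
      filter_upwards [hcon, g1, g2, g3, g4, g5, g6, g7] with n hn g1 g2 g3 g4 g5 g6 g7
      push Not at hn
      obtain ⟨j, ⟨x, hx1, hx2⟩, hj⟩ := hn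
      obtain ⟨z, hz1, hz2, hz3⟩ := step (a n) (b n) g1 g2 g3 g4 g5 g6 g7 x
        (θ := 1 / 10 ^ 4) (by positivity) (by rw [hx1]; simpa using hx2.le)
      rw [hx1] at hz1 hz2 hz3
      refine ⟨j, z, by simpa using hz2, fun x' => En_ge_of_unit _ (fun x hx => ?_) x',
        by simpa using hz1, hz3.trans (by norm_num)⟩
      by_contra hlt
      exact hj ⟨x, hx, not_le.1 hlt⟩
    have key' : ∀ n, ∃ j, ∃ z : L2 (Y (j + 1)) (H n), ‖z‖ ≤ 2 ∧
        ((∃ j, ∃ z : L2 (Y (j + 1)) (H n), ‖z‖ ≤ 2 ∧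
          (∀ x : L2 (Y (j + 1)) (H n), (1 / 10 ^ 4) ^ 2 * ‖x‖ ^ 2 ≤ EnY (a n) (j + 1) x) ∧
          1 ≤ 2 * ‖z‖ ^ 2 ∧ EnY (a n) (j + 1) z ≤ 1 / 100) →
        (∀ x : L2 (Y (j + 1)) (H n), (1 / 10 ^ 4) ^ 2 * ‖x‖ ^ 2 ≤ EnY (a n) (j + 1) x) ∧
          1 ≤ 2 * ‖z‖ ^ 2 ∧ EnY (a n) (j + 1) z ≤ 1 / 100) := fun n => by
      by_cases hn : ∃ j, ∃ z : L2 (Y (j + 1)) (H n), ‖z‖ ≤ 2 ∧
          (∀ x : L2 (Y (j + 1)) (H n), (1 / 10 ^ 4) ^ 2 * ‖x‖ ^ 2 ≤ EnY (a n) (j + 1) x) ∧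
          1 ≤ 2 * ‖z‖ ^ 2 ∧ EnY (a n) (j + 1) z ≤ 1 / 100
      · obtain ⟨j, z, h1, h2⟩ := hn
        exact ⟨j, z, h1, fun _ => h2⟩
      · exact ⟨0, 0, by simp, fun h => absurd h hn⟩
    choose j z hz1 hz2 using key'
    have hT := hX.prod (TSys.pi fun n => tsys_XY (j n + 1))
    have hfin := ultra_gap hT (hR.op fun n => Y (j n + 1)) (δ := (1 / 10 ^ 4) ^ 2) (by positivity)
      (key.mono fun n hn => (hz2 n hn).1) z hz1 (η := 1 / 100) (by norm_num)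
    obtain ⟨n, hn1, hn2⟩ := (key.and hfin).exists
    obtain ⟨-, h1, h2⟩ := hz2 n hn1
    change ‖z n‖ ^ 2 ≤ 2 * EnY (a n) (j n + 1) (z n) + 1 / 100 at hn2
    linarith
  -- end
  have hy2 : ∀ᶠ n in (ω : Filter ℕ), ∀ i c, ‖v n (X i c)‖ ≤ 1 + 1 / 10 ^ 4 :=
    eventually_all.2 fun i => eventually_all.2 fun c => hv2 _
  obtain ⟨n, ⟨hn1, hn2⟩, hn3⟩ := ((hstart.and hstep).and hy2).exists
  obtain ⟨j, hj⟩ := end_bound hO.1 hO.2.1 hO.2.2.1 hO.2.2.2.1 (π n) _ hn3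
  have hP : ∀ j, P n j := fun j => Nat.rec hn1 hn2 j
  obtain ⟨x, hx1, hx2⟩ := hP j
  have := hj x
  rw [hx1, one_pow, mul_one] at this
  exact absurd hx2 (not_lt.2 this)

end Crest.Agent.R73
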