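import Crest.Agent.R73.Defs

/-! # Row 73: singular value estimate -/

set_option autoImplicit false

open scoped InnerProductSpace
open Filter Topology

namespace Crest.Agent.R73

lemma svd_real {L : Type*} [Fintype L] (σ : L → ℝ) (hσ : ∀ l, 0 ≤ σ l) (a u : L → L → ℝ) (β : ℝ)
    (hβ : 0 < β) (h1 : ∀ m, ∑ l, a l m ^ 2 ≤ β ^ 2) (h2 : ∀ l, ∑ m, a l m ^ 2 ≤ β ^ 2) :
    2 * ∑ l, ∑ m, σ l * σ m * a l m * u l m ≤
      β * (∑ l, ∑ m, σ l * σ m * u l m ^ 2 + ∑ l, σ l ^ 2) := by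
  have hp : ∀ l m, 2 * (σ l * σ m * a l m * u l m) ≤ β * (σ l * σ m * u l m ^ 2) +
      ((2 * β)⁻¹ * (σ l ^ 2 * a l m ^ 2) + (2 * β)⁻¹ * (σ m ^ 2 * a l m ^ 2)) := by
    intro l m
    have e1 : 0 ≤ σ l * σ m * (β * u l m - a l m) ^ 2 := by have := hσ l; have := hσ m; positivity
    have e2 : 0 ≤ (σ l - σ m) ^ 2 * a l m ^ 2 := by positivity
    have e3 : β * (σ l * σ m * u l m ^ 2) +
        ((2 * β)⁻¹ * (σ l ^ 2 * a l m ^ 2) + (2 * β)⁻¹ * (σ m ^ 2 * a l m ^ 2)) -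
        2 * (σ l * σ m * a l m * u l m) = β⁻¹ * (σ l * σ m * (β * u l m - a l m) ^ 2) +
          (2 * β)⁻¹ * ((σ l - σ m) ^ 2 * a l m ^ 2) := by
      field_simp
      ring
    have e4 : 0 ≤ β⁻¹ * (σ l * σ m * (β * u l m - a l m) ^ 2) +
          (2 * β)⁻¹ * ((σ l - σ m) ^ 2 * a l m ^ 2) := by positivity
    linarith
  have s1 : ∑ l, ∑ m, σ l ^ 2 * a l m ^ 2 ≤ β ^ 2 * ∑ l, σ l ^ 2 := by
    rw [Finset.mul_sum]
    refine Finset.sum_le_sum fun l _ => ?_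
    rw [← Finset.mul_sum, mul_comm]
    exact mul_le_mul_of_nonneg_right (h2 l) (by positivity)
  have s2 : ∑ l, ∑ m, σ m ^ 2 * a l m ^ 2 ≤ β ^ 2 * ∑ l, σ l ^ 2 := by
    rw [Finset.sum_comm, Finset.mul_sum]
    refine Finset.sum_le_sum fun m _ => ?_
    rw [← Finset.mul_sum, mul_comm]
    exact mul_le_mul_of_nonneg_right (h1 m) (by positivity)
  calc 2 * ∑ l, ∑ m, σ l * σ m * a l m * u l m
      = ∑ l, ∑ m, 2 * (σ l * σ m * a l m * u l m) := by simp only [Finset.mul_sum]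
    _ ≤ ∑ l, ∑ m, (β * (σ l * σ m * u l m ^ 2) +
        ((2 * β)⁻¹ * (σ l ^ 2 * a l m ^ 2) + (2 * β)⁻¹ * (σ m ^ 2 * a l m ^ 2))) :=
        Finset.sum_le_sum fun l _ => Finset.sum_le_sum fun m _ => hp l m
    _ = β * ∑ l, ∑ m, σ l * σ m * u l m ^ 2 + ((2 * β)⁻¹ * ∑ l, ∑ m, σ l ^ 2 * a l m ^ 2 +
        (2 * β)⁻¹ * ∑ l, ∑ m, σ m ^ 2 * a l m ^ 2) := by
        simp only [Finset.mul_sum, Finset.sum_add_distrib]
    _ ≤ β * ∑ l, ∑ m, σ l * σ m * u l m ^ 2 + ((2 * β)⁻¹ * (β ^ 2 * ∑ l, σ l ^ 2) +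
        (2 * β)⁻¹ * (β ^ 2 * ∑ l, σ l ^ 2)) := by gcongr
    _ = _ := by field_simp; ring

section
variable {E : Type*} [NormedAddCommGroup E] [InnerProductSpace ℂ E]

lemma svd_norm_le {z : E} {C : ℝ} (hC : 0 ≤ C) (h : ∀ v, ‖⟪v, z⟫_ℂ‖ ≤ C * ‖v‖) : ‖z‖ ≤ C := by
  have h1 := h z
  rw [inner_self_eq_norm_sq_to_K, norm_pow, RCLike.norm_ofReal, abs_norm, sq] at h1
  rcases (norm_nonneg z).eq_or_lt with h0 | h0
  · rw [← h0]; exact hC
  · exact le_of_mul_le_mul_right h1 h0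

/-- Normalisation (zero for the zero vector). -/
noncomputable def svd_hat (p : E) : E := ((‖p‖ : ℂ))⁻¹ • p

lemma svd_smul_hat (p : E) : (‖p‖ : ℂ) • svd_hat p = p := by
  by_cases h : p = 0
  · simp [h, svd_hat]
  · rw [svd_hat, smul_smul, mul_inv_cancel₀ (by simpa using h), one_smul]

lemma svd_norm_hat {p : E} (h : p ≠ 0) : ‖svd_hat p‖ = 1 := by
  rw [svd_hat, norm_smul, norm_inv, Complex.norm_real, norm_norm, inv_mul_cancel₀ (by simpa using h)]

lemma svd_norm_hat_le (p : E) : ‖svd_hat p‖ ≤ 1 := by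
  by_cases h : p = 0
  · simp [h, svd_hat]
  · exact (svd_norm_hat h).le

lemma svd_norm_mul_hat (p : E) : ‖p‖ * ‖svd_hat p‖ = ‖p‖ := by
  by_cases h : p = 0
  · simp [h]
  · rw [svd_norm_hat h, mul_one]

lemma svd_bessel {L : Type*} [Fintype L] (P : L → E) (hP : ∀ l m, l ≠ m → ⟪P l, P m⟫_ℂ = 0)
    (v : E) : ∑ l, ‖⟪svd_hat (P l), v⟫_ℂ‖ ^ 2 ≤ ‖v‖ ^ 2 := by
  classical
  have ho : Orthonormal ℂ fun l : {l // P l ≠ 0} => svd_hat (P l.1) := by
    refine ⟨fun l => svd_norm_hat l.2, fun l m hlm => ?_⟩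
    simp only [svd_hat, inner_smul_left, inner_smul_right]
    rw [hP l.1 m.1 fun h => hlm (Subtype.ext h), mul_zero, mul_zero]
  have h := ho.sum_inner_products_le v (s := Finset.univ)
  refine le_trans (le_of_eq ?_) h
  rw [← Finset.sum_subtype (Finset.univ.filter fun l => P l ≠ 0) (by simp)
    (fun l => ‖⟪svd_hat (P l), v⟫_ℂ‖ ^ 2), Finset.sum_filter_of_ne]
  intro l _ hl h0
  exact hl (by simp [h0, svd_hat])

lemma svd_basis [FiniteDimensional ℂ E] {I : Type*} [Fintype I] (x : I → E) :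
    ∃ q : OrthonormalBasis (Fin (Module.finrank ℂ E)) ℂ E, ∀ l m, l ≠ m →
      ∑ k, ⟪x k, q l⟫_ℂ * ⟪q m, x k⟫_ℂ = 0 := by
  let M : E →ₗ[ℂ] E := ∑ k, (innerₛₗ ℂ (x k)).smulRight (x k)
  have hM : ∀ v, M v = ∑ k, ⟪x k, v⟫_ℂ • x k := fun v => by simp [M, LinearMap.sum_apply]
  have hs : M.IsSymmetric := by
    intro u v
    rw [hM, hM, sum_inner, inner_sum]
    refine Finset.sum_congr rfl fun k _ => ?_
    rw [inner_smul_left, inner_smul_right, inner_conj_symm, mul_comm]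
  refine ⟨hs.eigenvectorBasis rfl, fun l m hlm => ?_⟩
  have h1 := hs.apply_eigenvectorBasis rfl l
  have h2 := congrArg (fun v => ⟪hs.eigenvectorBasis rfl m, v⟫_ℂ) h1
  simp only [hM, inner_sum, inner_smul_right] at h2
  rw [h2, (hs.eigenvectorBasis rfl).orthonormal.2 hlm.symm, mul_zero]

end

lemma svd_inner_dbl {Y L : Type*} [Fintype Y] [Fintype L] (σ : L → ℝ) (q : L → L2 Y ℂ)
    (A : L2 (Y × Y) ℂ) (hA : ∀ y y', A (y, y') = ∑ l, (σ l : ℂ) * (q l y * star (q l y')))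
    (w : Mon Y) : ⟪A, op (1 : ℂ →L[ℂ] ℂ) (Mon.dbl w) A⟫_ℂ =
      ((∑ l, ∑ m, σ l * σ m * ‖⟪q l, op (1 : ℂ →L[ℂ] ℂ) w (q m)⟫_ℂ‖ ^ 2 : ℝ) : ℂ) := by
  have h1 : ∀ l m, ((‖⟪q l, op (1 : ℂ →L[ℂ] ℂ) w (q m)⟫_ℂ‖ : ℂ)) ^ 2 = ∑ y, ∑ y',
      (ec (w.ph y) * q m (w.pm y) * star (q l y)) *
        star (ec (w.ph y') * q m (w.pm y') * star (q l y')) := by
    intro l m
    rw [← Complex.mul_conj', ← Finset.sum_mul_sum, ← star_sum]
    simp [PiLp.inner_apply]
  push_cast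
  simp only [h1]
  simp only [PiLp.inner_apply, Fintype.sum_prod_type, op_apply, Mon.dbl_ph, Mon.dbl_pm, hA,
    one_apply_eq_self, smul_eq_mul, RCLike.inner_apply, sub_eq_add_neg, ec_add, ec_neg,
    map_sum, Finset.mul_sum, Finset.sum_mul]
  calc _ = ∑ y, ∑ y', ∑ l, ∑ m, (σ l : ℂ) * σ m * ((ec (w.ph y) * q m (w.pm y) * star (q l y)) *
        star (ec (w.ph y') * q m (w.pm y') * star (q l y'))) := by
        refine Finset.sum_congr rfl fun y _ => Finset.sum_congr rfl fun y' _ =>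
          Finset.sum_congr rfl fun l _ => Finset.sum_congr rfl fun m _ => ?_
        simp only [map_mul, Complex.conj_ofReal, star_mul', RCLike.star_def,
          Complex.conj_conj]
        ring
    _ = ∑ y, ∑ l, ∑ m, ∑ y', (σ l : ℂ) * σ m * ((ec (w.ph y) * q m (w.pm y) * star (q l y)) *
        star (ec (w.ph y') * q m (w.pm y') * star (q l y'))) := by
        refine Finset.sum_congr rfl fun y _ => ?_
        rw [Finset.sum_comm]
        exact Finset.sum_congr rfl fun l _ => Finset.sum_comm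
    _ = _ := by
        rw [Finset.sum_comm]
        exact Finset.sum_congr rfl fun l _ => Finset.sum_comm

/-- The absolute value `A = |x|` of a family `x : I → ℓ²(Y)`: `A (y, y') = ∑_l σ_l q_l y * conj (q_l y')`
for an eigenbasis `q` of `∑_k |x k⟩⟨x k|`. -/
theorem exists_abs {I Y : Type*} [Fintype I] [Fintype Y] (x : I → L2 Y ℂ) :
    ∃ A : L2 (Y × Y) ℂ, ‖A‖ ^ 2 = ∑ k, ‖x k‖ ^ 2 ∧
      (∑ y, ‖A (y, y)‖) ^ 2 ≤ Fintype.card I * ∑ k, ‖x k‖ ^ 2 ∧
      ∀ (w : Mon Y) (b : I → I → ℂ) (β : ℝ), 0 < β →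
        (∀ v v' : EuclideanSpace ℂ I, ‖∑ i, ∑ i', star (v i) * b i i' * v' i'‖ ≤ β * (‖v‖ * ‖v'‖)) →
        2 * ‖∑ k, ∑ k', b k k' * ⟪x k, op (1 : ℂ →L[ℂ] ℂ) w (x k')⟫_ℂ‖ ≤
          β * ((⟪A, op (1 : ℂ →L[ℂ] ℂ) (Mon.dbl w) A⟫_ℂ).re + ∑ k, ‖x k‖ ^ 2) := by
  classical
  obtain ⟨q, hq⟩ := svd_basis x
  let P : Fin (Module.finrank ℂ (L2 Y ℂ)) → EuclideanSpace ℂ I :=
    fun l => WithLp.toLp 2 fun k => ⟪q l, x k⟫_ℂ
  have hPk : ∀ l k, P l k = ⟪q l, x k⟫_ℂ := fun l k => rfl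
  have hP : ∀ l m, l ≠ m → ⟪P l, P m⟫_ℂ = 0 := by
    intro l m hlm
    rw [← hq l m hlm, PiLp.inner_apply]
    refine Finset.sum_congr rfl fun k _ => ?_
    rw [hPk, hPk, RCLike.inner_apply, inner_conj_symm, mul_comm]
  have hσ : ∑ l, ‖P l‖ ^ 2 = ∑ k, ‖x k‖ ^ 2 := by
    simp only [EuclideanSpace.norm_sq_eq, hPk]
    rw [Finset.sum_comm]
    refine Finset.sum_congr rfl fun k _ => ?_
    rw [q.sum_sq_norm_inner_right, EuclideanSpace.norm_sq_eq]
  let A : L2 (Y × Y) ℂ := WithLp.toLp 2 fun p => ∑ l, (‖P l‖ : ℂ) * (q l p.1 * star (q l p.2))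
  have hA : ∀ y y', A (y, y') = ∑ l, (‖P l‖ : ℂ) * (q l y * star (q l y')) := fun y y' => rfl
  have hin := svd_inner_dbl (fun l => ‖P l‖) q A hA
  refine ⟨A, ?_, ?_, fun w b β hβ hb => ?_⟩
  · have h1 := hin 1
    rw [map_one, op_one, inner_self_eq_norm_sq_to_K] at h1
    have h2 : ‖A‖ ^ 2 = ∑ l, ∑ m, ‖P l‖ * ‖P m‖ * ‖⟪q l, op (1 : ℂ →L[ℂ] ℂ) 1 (q m)⟫_ℂ‖ ^ 2 := by
      apply Complex.ofReal_injective
      rw [← h1]
      simp
    rw [h2, ← hσ]
    refine Finset.sum_congr rfl fun l _ => ?_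
    rw [Finset.sum_eq_single l]
    · rw [op_one, inner_self_eq_norm_sq_to_K, q.orthonormal.1 l]; simp [sq]
    · intro m _ hm
      rw [op_one, q.orthonormal.2 hm.symm]; simp
    · simp
  · have h1 : ∑ y, ‖A (y, y)‖ ≤ ∑ l, ‖P l‖ * ‖svd_hat (P l)‖ := by
      calc ∑ y, ‖A (y, y)‖ ≤ ∑ y, ∑ l, ‖P l‖ * ‖q l y‖ ^ 2 := by
            refine Finset.sum_le_sum fun y _ => ?_
            rw [hA]
            refine (norm_sum_le _ _).trans (le_of_eq (Finset.sum_congr rfl fun l _ => ?_))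
            simp [sq]
        _ = _ := by
            rw [Finset.sum_comm]
            refine Finset.sum_congr rfl fun l _ => ?_
            rw [← Finset.mul_sum, ← L2_norm_sq, q.orthonormal.1 l, svd_norm_mul_hat]
            simp
    have h2 : ∑ l, ‖svd_hat (P l)‖ ^ 2 ≤ Fintype.card I := by
      simp only [EuclideanSpace.norm_sq_eq]
      rw [Finset.sum_comm]
      calc _ ≤ ∑ _k : I, (1 : ℝ) := by
            refine Finset.sum_le_sum fun k _ => ?_
            have := svd_bessel P hP (EuclideanSpace.single k 1)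
            simpa [EuclideanSpace.inner_single_right] using this
        _ = _ := by simp
    calc (∑ y, ‖A (y, y)‖) ^ 2 ≤ (∑ l, ‖P l‖ * ‖svd_hat (P l)‖) ^ 2 := by
          gcongr
      _ ≤ (∑ l, ‖P l‖ ^ 2) * ∑ l, ‖svd_hat (P l)‖ ^ 2 := Finset.sum_mul_sq_le_sq_mul_sq _ _ _
      _ ≤ (∑ l, ‖P l‖ ^ 2) * Fintype.card I := by gcongr
      _ = _ := by rw [hσ, mul_comm]
  · let c : _ → _ → ℂ := fun l m => ∑ i, ∑ i', star (svd_hat (P l) i) * b i i' * svd_hat (P m) i'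
    let u : _ → _ → ℂ := fun l m => ⟪q l, op (1 : ℂ →L[ℂ] ℂ) w (q m)⟫_ℂ
    have hx : ∀ k, x k = ∑ l, ((‖P l‖ : ℂ) * svd_hat (P l) k) • q l := by
      intro k
      conv_lhs => rw [← q.sum_repr' (x k)]
      refine Finset.sum_congr rfl fun l _ => ?_
      rw [← hPk]
      conv_lhs => rw [← svd_smul_hat (P l)]
      rfl
    have h1 : ∑ k, ∑ k', b k k' * ⟪x k, op (1 : ℂ →L[ℂ] ℂ) w (x k')⟫_ℂ =
        ∑ l, ∑ m, (‖P l‖ : ℂ) * ‖P m‖ * c l m * u l m := by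
      calc _ = ∑ k, ∑ k', ∑ l, ∑ m, (‖P l‖ : ℂ) * ‖P m‖ *
            (star (svd_hat (P l) k) * b k k' * svd_hat (P m) k') * u l m := by
            refine Finset.sum_congr rfl fun k _ => Finset.sum_congr rfl fun k' _ => ?_
            conv_lhs => rw [hx k, hx k']
            rw [map_sum, sum_inner, Finset.mul_sum]
            refine Finset.sum_congr rfl fun l _ => ?_
            rw [inner_sum, Finset.mul_sum]
            refine Finset.sum_congr rfl fun m _ => ?_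
            rw [map_smul, inner_smul_left, inner_smul_right]
            simp only [map_mul, Complex.conj_ofReal, RCLike.star_def, u]
            ring
        _ = ∑ k, ∑ l, ∑ m, ∑ k', (‖P l‖ : ℂ) * ‖P m‖ *
            (star (svd_hat (P l) k) * b k k' * svd_hat (P m) k') * u l m := by
            refine Finset.sum_congr rfl fun y _ => ?_
            rw [Finset.sum_comm]
            exact Finset.sum_congr rfl fun l _ => Finset.sum_comm
        _ = ∑ l, ∑ m, ∑ k, ∑ k', (‖P l‖ : ℂ) * ‖P m‖ *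
            (star (svd_hat (P l) k) * b k k' * svd_hat (P m) k') * u l m := by
            rw [Finset.sum_comm]
            exact Finset.sum_congr rfl fun l _ => Finset.sum_comm
        _ = _ := by simp only [c, Finset.mul_sum, Finset.sum_mul]
    have hc1 : ∀ m, ∑ l, ‖c l m‖ ^ 2 ≤ β ^ 2 := by
      intro m
      let z : EuclideanSpace ℂ I := WithLp.toLp 2 fun i => ∑ i', b i i' * svd_hat (P m) i'
      have hz : ∀ v : EuclideanSpace ℂ I,
          ⟪v, z⟫_ℂ = ∑ i, ∑ i', star (v i) * b i i' * svd_hat (P m) i' := by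
        intro v
        simp only [PiLp.inner_apply, RCLike.inner_apply, z, Finset.sum_mul, RCLike.star_def]
        refine Finset.sum_congr rfl fun i _ => Finset.sum_congr rfl fun i' _ => by ring
      have hzn : ‖z‖ ≤ β := svd_norm_le hβ.le fun v => by
        rw [hz]
        refine (hb _ _).trans ?_
        have := svd_norm_hat_le (P m)
        have h0 := norm_nonneg v
        gcongr
        nlinarith
      calc ∑ l, ‖c l m‖ ^ 2 = ∑ l, ‖⟪svd_hat (P l), z⟫_ℂ‖ ^ 2 := by simp only [hz, c]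
        _ ≤ ‖z‖ ^ 2 := svd_bessel P hP z
        _ ≤ β ^ 2 := by gcongr
    have hc2 : ∀ l, ∑ m, ‖c l m‖ ^ 2 ≤ β ^ 2 := by
      intro l
      let z : EuclideanSpace ℂ I := WithLp.toLp 2 fun i' => ∑ i, star (b i i') * svd_hat (P l) i
      have hz : ∀ v : EuclideanSpace ℂ I,
          ‖⟪v, z⟫_ℂ‖ = ‖∑ i, ∑ i', star (svd_hat (P l) i) * b i i' * v i'‖ := by
        intro v
        rw [← norm_inner_symm, Finset.sum_comm]
        congr 1
        simp only [PiLp.inner_apply, RCLike.inner_apply, z, Finset.mul_sum, RCLike.star_def,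
          map_sum, map_mul, Complex.conj_conj]
        refine Finset.sum_congr rfl fun i _ => Finset.sum_congr rfl fun i' _ => by ring
      have hzn : ‖z‖ ≤ β := svd_norm_le hβ.le fun v => by
        rw [hz]
        refine (hb _ _).trans ?_
        have := svd_norm_hat_le (P l)
        have h0 := norm_nonneg v
        gcongr
        nlinarith
      calc ∑ m, ‖c l m‖ ^ 2 = ∑ m, ‖⟪svd_hat (P m), z⟫_ℂ‖ ^ 2 := by simp only [hz, c]
        _ ≤ ‖z‖ ^ 2 := svd_bessel P hP z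
        _ ≤ β ^ 2 := by gcongr
    have h2 := svd_real (fun l => ‖P l‖) (fun l => norm_nonneg _) (fun l m => ‖c l m‖)
      (fun l m => ‖u l m‖) β hβ hc1 hc2
    rw [hin w, Complex.ofReal_re, ← hσ, h1]
    refine le_trans ?_ h2
    gcongr
    refine (norm_sum_le _ _).trans (Finset.sum_le_sum fun l _ => ?_)
    refine (norm_sum_le _ _).trans (le_of_eq (Finset.sum_congr rfl fun m _ => ?_))
    simp

end Crest.Agent.R73
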