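import Crest.Agent.R73.Defs

/-! # Row 73: the monomial systems on `Y j` -/

set_option autoImplicit false

open scoped InnerProductSpace
open Filter Topology

namespace Crest.Agent.R73

lemma XY_three (j : ℕ) (a : F) : XY j 3 a = ⟨fun l => a * l.1 0, Equiv.refl _⟩ := rfl

lemma XY_ne (j : ℕ) {i : Fin 4} (hi : i ≠ 3) (a : F) :
    XY j i a = ⟨0, shrY j 1 (by norm_num) i a⟩ := if_neg hi

/-- A pure shear. -/
def shM (j d : ℕ) (hd : d % 3 ≠ 0) (r : ℕ) (a : F) : Mon (Y j) := ⟨0, shrY j d hd r a⟩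

/-- A pure phase. -/
def phM (j k : ℕ) (a : F) : Mon (Y j) := ⟨fun l => a * l.1 k, Equiv.refl _⟩

lemma shM_fam (j d : ℕ) (hd : d % 3 ≠ 0) (r : ℕ) : IsFam (shM j d hd r) := fun a b =>
  Mon.ext' (fun l => by simp [shM]) fun l => Subtype.ext (by simp [shM, shr_shr hd])

lemma phM_fam (j k : ℕ) : IsFam (phM j k) := fun a b =>
  Mon.ext' (fun l => by simp [phM, add_mul]) fun l => rfl

lemma heis_sh (j r r' : ℕ) (hr' : r' = (r + 1) % 3) :
    Heis (shM j 1 (by norm_num) r) (shM j 1 (by norm_num) r') := by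
  refine ⟨fun c => shM j 2 (by norm_num) r (-c), fun a b => ?_, fun a b => ?_, fun a b => ?_,
    fun a b => ?_⟩
  · simp only [neg_add, shM_fam j 2 _ r (-a) (-b)]
  all_goals
    refine Mon.ext' (fun l => by simp [shM]) fun l => Subtype.ext (funext fun i => ?_)
    simp only [shM, Mon.mul_pm, shrY_val, shr, add_assoc, Nat.reduceAdd]
    split_ifs <;> first | omega | ring

lemma heis_sh_ph (j : ℕ) : Heis (shM j 1 (by norm_num) 0) (phM j 0) := by
  refine ⟨phM j 1, phM_fam j 1, fun a b => ?_, fun a b => ?_, fun a b => ?_⟩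
  all_goals
    refine Mon.ext' (fun l => ?_) fun l => rfl
    simp [shM, phM, shr]
    try ring

lemma heis_sh_ph' (j r : ℕ) (hr : r ≠ 0) : Heis (shM j 1 (by norm_num) r) (phM j 0) :=
  Heis.of_comm fun a b => Mon.ext' (fun l => by simp [shM, phM, shr, hr.symm]) fun l => rfl

theorem tsys_XY (j : ℕ) : TSys (XY j) := by
  refine TSys.of_six (fun i => ?_) (heis_sh j 0 1 rfl)
    (heis_sh j 1 2 rfl) (heis_sh j 2 0 rfl) (heis_sh_ph j)
    (heis_sh_ph' j 1 (by norm_num)) (heis_sh_ph' j 2 (by norm_num))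
  by_cases hi : i = 3
  · subst hi; exact phM_fam j 0
  · have : XY j i = shM j 1 (by norm_num) i := funext fun a => XY_ne j hi a
    rw [this]
    exact shM_fam _ _ _ _

/-- A nonempty shear invariant set of functionals of level `j` is large. -/
lemma level_card {j : ℕ} (O : Finset (Y j)) (hO : O.Nonempty)
    (h : ∀ r < 3, ∀ l ∈ O, shrY j 1 (by norm_num) r 1 l ∈ O) : j < 3 * 11 ^ O.card := by
  classical
  by_contra hlt
  push Not at hlt
  let st : ℕ → (O → F) × Fin 3 := fun i => (fun l => l.1.1 i, ⟨i % 3, Nat.mod_lt _ (by norm_num)⟩)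
  have hrec : ∀ i i', st i = st i' → st (i + 1) = st (i' + 1) := by
    intro i i' hi
    have h1 : ∀ l : O, l.1.1 i = l.1.1 i' := fun l => congrFun (congrArg Prod.fst hi) l
    have h2 : i % 3 = i' % 3 := congrArg (fun p => p.2.1) hi
    refine Prod.ext (funext fun l => ?_) (Fin.ext (by simp only [st]; omega))
    have h3 := h1 ⟨_, h (i % 3) (Nat.mod_lt _ (by norm_num)) l.1 l.2⟩
    simp only [shrY_val, shr, if_true, h2, one_mul, h1 l] at h3
    exact add_left_cancel h3
  have hrec' : ∀ i i', st i = st i' → ∀ k, st (i + k) = st (i' + k) := fun i i' hi k => by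
    induction k with
    | zero => exact hi
    | succ k ih => exact hrec _ _ ih
  have hcard : Fintype.card ((O → F) × Fin 3) < Fintype.card (Fin (j + 1)) := by
    simp only [Fintype.card_prod, Fintype.card_fun, ZMod.card, Fintype.card_coe, Fintype.card_fin]
    omega
  obtain ⟨i, i', hne, heq⟩ := Fintype.exists_ne_map_eq_of_card_lt (fun i : Fin (j + 1) => st i) hcard
  obtain ⟨l, hl⟩ := hO
  have key : ∀ a b : ℕ, a < b → a ≤ j → st a = st b → False := fun a b hab ha hs => by
    have h1 := congrFun (congrArg Prod.fst (hrec' a b hs (j - a))) ⟨l, hl⟩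
    simp only [st, Nat.add_sub_cancel' ha, l.2.1, l.2.2 (b + (j - a)) (by omega)] at h1
    exact one_ne_zero h1
  rcases lt_or_gt_of_ne (Fin.val_ne_of_ne hne) with h1 | h1
  · exact key _ _ h1 (by omega) heq
  · exact key _ _ h1 (by omega) heq.symm

/-- Invariant matrices are diagonal with flat diagonal. -/
theorem inv_small {j d : ℕ} (hd : 3 * 11 ^ d ≤ j) (T : L2 (Y j × Y j) ℂ)
    (hT : ∀ i c, op (1 : ℂ →L[ℂ] ℂ) (Mon.dbl (XY j i c)) T = T) :
    (∀ l l', l ≠ l' → T (l, l') = 0) ∧ ∀ l, d * ‖T (l, l)‖ ^ 2 ≤ ‖T‖ ^ 2 := by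
  classical
  have h1 : ∀ r < 3, ∀ l l', T (shrY j 1 (by norm_num) r 1 l, shrY j 1 (by norm_num) r 1 l') =
      T (l, l') := fun r hr l l' => by
    have hne : (⟨r, by omega⟩ : Fin 4) ≠ 3 := fun h => by
      have := congrArg Fin.val h
      simp at this; omega
    have := congrArg (fun S : L2 (Y j × Y j) ℂ => S (l, l')) (hT ⟨r, by omega⟩ 1)
    simpa [XY_ne j hne] using this
  have h2 : ∀ l l', T (l, l') ≠ 0 → l.1 0 = l'.1 0 := fun l l' hne => by
    have := congrArg (fun S : L2 (Y j × Y j) ℂ => S (l, l')) (hT 3 1)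
    simp only [XY_three, op_apply, Mon.dbl_ph, one_mul, Mon.dbl_pm, Equiv.refl_apply,
      one_apply_eq_self, smul_eq_mul, mul_eq_right₀ hne] at this
    exact sub_eq_zero.1 (ec_injective (this.trans ec_zero.symm))
  have h3 : ∀ i, ∀ l l', T (l, l') ≠ 0 → l.1 i = l'.1 i := fun i => by
    induction i with
    | zero => exact h2
    | succ i ih =>
      intro l l' hne
      have := ih _ _ (by rw [h1 (i % 3) (Nat.mod_lt _ (by norm_num))]; exact hne)
      simp only [shrY_val, shr, if_true, one_mul, ih l l' hne] at this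
      exact add_left_cancel this
  refine ⟨fun l l' hne => ?_, fun l => ?_⟩
  · by_contra h0
    exact hne (Subtype.ext (funext fun i => h3 i l l' h0))
  · let O : Finset (Y j) := Finset.univ.filter fun l' => T (l', l') = T (l, l)
    have h4 := level_card O ⟨l, by simp [O]⟩ fun r hr l' hl' => by
      simp only [O, Finset.mem_filter, Finset.mem_univ, true_and] at hl' ⊢
      rw [h1 r hr, hl']
    have h5 : d ≤ O.card := by
      have : 11 ^ d < 11 ^ O.card := by omega
      exact ((Nat.pow_lt_pow_iff_right (by norm_num)).1 this).le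
    calc (d : ℝ) * ‖T (l, l)‖ ^ 2 ≤ O.card * ‖T (l, l)‖ ^ 2 := by gcongr
      _ = ∑ l' ∈ O, ‖T (l', l')‖ ^ 2 := by
        rw [Finset.sum_congr rfl fun l' hl' => by rw [(Finset.mem_filter.1 hl').2]]
        simp
      _ = ∑ p ∈ O.map ⟨fun l' => (l', l'), fun _ _ h => congrArg Prod.fst h⟩, ‖T p‖ ^ 2 := by
        simp
      _ ≤ ∑ p, ‖T p‖ ^ 2 :=
        Finset.sum_le_sum_of_subset_of_nonneg (Finset.subset_univ _) fun _ _ _ => by positivity
      _ = ‖T‖ ^ 2 := (L2_norm_sq T).symm

end Crest.Agent.R73
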