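import Crest.Agent.R73.T
import Crest.Agent.R73.YSys
import Crest.Agent.R73.SVD

/-! # Row 73: matrices of bounded size have no almost invariant vectors at high level -/

set_option autoImplicit false

open scoped InnerProductSpace
open Filter Topology

namespace Crest.Agent.R73

/-- The conjugation representation on matrices. -/
noncomputable def conjRep (Y : Type*) [Fintype Y] : Mon Y →* (L2 (Y × Y) ℂ →ₗ[ℂ] L2 (Y × Y) ℂ) where
  toFun g := (op (1 : ℂ →L[ℂ] ℂ) (Mon.dbl g)).toLinearMap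
  map_one' := LinearMap.ext fun x => by rw [map_one]; exact op_one x
  map_mul' g h := LinearMap.ext fun x => by rw [map_mul]; exact (op_mul 1 1 _ _ x).symm

lemma conjRep_apply {Y : Type*} [Fintype Y] (g : Mon Y) (x : L2 (Y × Y) ℂ) :
    conjRep Y g x = op (1 : ℂ →L[ℂ] ℂ) (Mon.dbl g) x := rfl

/-- The gap in a finite-dimensional representation. -/
lemma fd_gap {K : Type*} [Group K] {X : Fin 4 → F → K} (hX : TSys X) {V : Type*}
    [NormedAddCommGroup V] [InnerProductSpace ℂ V] [FiniteDimensional ℂ V] (ρ : K →* (V →ₗ[ℂ] V))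
    (hρ : ∀ g v, ‖ρ g v‖ = ‖v‖) (v : V) : ∃ v₀ : V, (∀ i c, ρ (X i c) v₀ = v₀) ∧
      ⟪v₀, v - v₀⟫_ℂ = 0 ∧ ‖v - v₀‖ ^ 2 ≤ 2 * En (fun i c => ρ (X i c)) v := by
  let D : V →ₗ[ℂ] (Fin 4 × F → V) := LinearMap.pi fun p => ρ (X p.1 p.2) - LinearMap.id
  let U : Submodule ℂ V := LinearMap.ker D
  have hU : ∀ u, u ∈ U ↔ ∀ i c, ρ (X i c) u = u := fun u => by
    simp [U, D, funext_iff, sub_eq_zero]
  obtain ⟨v₀, h₀, v₁, h₁, rfl⟩ := U.exists_add_mem_mem_orthogonal v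
  refine ⟨v₀, (hU _).1 h₀, by simpa using h₁ v₀ h₀, ?_⟩
  have hin : ∀ g a b, ⟪ρ g a, ρ g b⟫_ℂ = ⟪a, b⟫_ℂ := fun g =>
    (LinearMap.norm_map_iff_inner_map_map (ρ g)).1 (hρ g)
  obtain ⟨Kc, hK, hanti⟩ := (D.comp Uᗮ.subtype).exists_antilipschitzWith (by
    rw [LinearMap.ker_eq_bot']
    intro u hu
    have h1 : (u : V) ∈ U ⊓ Uᗮ := ⟨hu, u.2⟩
    rw [Submodule.inf_orthogonal_eq_bot] at h1
    exact Subtype.ext h1)
  have hK' : (0 : ℝ) < Kc := hK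
  have := gap hX ρ hρ Uᗮ (fun i c u hu u₀ hu₀ => by
      rw [← (hU _).1 hu₀ i c, hin]; exact hu u₀ hu₀) (δ := (Kc ^ 2 : ℝ)⁻¹) (by positivity)
    (fun u hu => by
      have h1 := ZeroHomClass.bound_of_antilipschitz (D.comp Uᗮ.subtype) hanti ⟨u, hu⟩
      have h2 : ‖D u‖ ≤ √(En (fun i c => ρ (X i c)) u) :=
        (pi_norm_le_iff_of_nonneg (Real.sqrt_nonneg _)).2 fun p =>
          Real.le_sqrt_of_sq_le (le_En (fun i c => ρ (X i c)) u p.1 p.2)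
      have h3 : ‖u‖ ≤ Kc * √(En (fun i c => ρ (X i c)) u) := h1.trans (by gcongr; exact h2)
      have h4 : ‖u‖ ^ 2 ≤ (Kc * √(En (fun i c => ρ (X i c)) u)) ^ 2 := by gcongr
      rw [mul_pow, Real.sq_sqrt (En_nonneg _ _)] at h4
      rwa [inv_mul_le_iff₀ (by positivity)]) v₁ h₁
  rw [add_sub_cancel_left]
  refine this.trans_eq ?_
  simp only [En, map_add, (hU _).1 h₀, add_sub_add_left_eq_sub]

lemma hs_scalar {I : Type*} [Fintype I] (b : Fin 4 → F → I → I → ℂ) {β : ℝ} (hβ : 0 < β)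
    (hb : ∀ i c (v w : EuclideanSpace ℂ I),
      ‖∑ k, ∑ k', star (v k) * b i c k k' * w k'‖ ≤ β * (‖v‖ * ‖w‖)) {j : ℕ}
    (hj : 3 * 11 ^ (2 * Fintype.card I) ≤ j) (x : I → L2 (Y j) ℂ) :
    (∑ i, ∑ c, ∑ k, ∑ k', b i c k k' * ⟪x k, op (1 : ℂ →L[ℂ] ℂ) (XY j i c) (x k')⟫_ℂ).re ≤
      β * (44 - 1 / 16) * ∑ k, ‖x k‖ ^ 2 := by
  classical
  rcases isEmpty_or_nonempty I with hI | hI
  · simp
  obtain ⟨A, hA1, hA2, hA3⟩ := exists_abs x
  set N := ∑ k, ‖x k‖ ^ 2 with hN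
  obtain ⟨A₀, h1, h2, h3⟩ := fd_gap (tsys_XY j) (conjRep (Y j)) (fun g v => norm_op_one _ v) A
  obtain ⟨h4, h5⟩ := inv_small hj A₀ h1
  have hk : (0 : ℝ) < Fintype.card I := by exact_mod_cast Fintype.card_pos
  have h6 : ‖A₀‖ ^ 2 = (⟪A₀, A⟫_ℂ).re := by
    rw [inner_sub_right, sub_eq_zero] at h2
    rw [h2]
    exact (inner_self_eq_norm_sq (𝕜 := ℂ) _).symm
  have h7 : ‖A₀‖ ^ 2 ≤ √(‖A₀‖ ^ 2 / (2 * Fintype.card I)) * ∑ y, ‖A (y, y)‖ := by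
    rw [h6, Finset.mul_sum, ← h6]
    refine h6.le.trans ((Complex.re_le_norm _).trans ?_)
    rw [PiLp.inner_apply, Fintype.sum_prod_type]
    refine (norm_sum_le _ _).trans (Finset.sum_le_sum fun l _ => ?_)
    rw [Finset.sum_eq_single l (fun l' _ hl' => by simp [h4 l l' hl'.symm]) (by simp)]
    refine (norm_inner_le_norm _ _).trans ?_
    gcongr
    refine Real.le_sqrt_of_sq_le ?_
    rw [le_div_iff₀ (by positivity), mul_comm]
    exact_mod_cast h5 l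
  have h8 : ‖A₀‖ ^ 2 ≤ N / 2 := by
    have h9 : (‖A₀‖ ^ 2) ^ 2 ≤ (√(‖A₀‖ ^ 2 / (2 * Fintype.card I)) * ∑ y, ‖A (y, y)‖) ^ 2 := by
      gcongr
    rw [mul_pow, Real.sq_sqrt (by positivity)] at h9
    have h10 : ‖A₀‖ ^ 2 / (2 * Fintype.card I) * (∑ y, ‖A (y, y)‖) ^ 2 ≤
        ‖A₀‖ ^ 2 / (2 * Fintype.card I) * (Fintype.card I * N) := by gcongr
    have h11 : ‖A₀‖ ^ 2 / (2 * Fintype.card I) * (Fintype.card I * N) = ‖A₀‖ ^ 2 * (N / 2) := by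
      field_simp
    have hN0 : 0 ≤ N := Finset.sum_nonneg fun _ _ => sq_nonneg _
    rcases (sq_nonneg ‖A₀‖).eq_or_lt with h | h
    · linarith
    · exact le_of_mul_le_mul_left (by linarith [sq (‖A₀‖ ^ 2)]) h
  have h12 : ‖A - A₀‖ ^ 2 = N - ‖A₀‖ ^ 2 := by
    rw [norm_sub_rev, @norm_sub_sq ℂ, hA1]
    change _ - 2 * (⟪A₀, A⟫_ℂ).re + _ = _
    linarith
  have h13 : En (fun i c => conjRep (Y j) (XY j i c)) A =
      ∑ i, ∑ c, (2 * N - 2 * (⟪A, op (1 : ℂ →L[ℂ] ℂ) (Mon.dbl (XY j i c)) A⟫_ℂ).re) := by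
    refine Finset.sum_congr rfl fun i _ => Finset.sum_congr rfl fun c _ => ?_
    beta_reduce
    rw [norm_sub_rev, @norm_sub_sq ℂ, conjRep_apply, norm_op_one, hA1]
    change _ - 2 * (⟪A, op (1 : ℂ →L[ℂ] ℂ) (Mon.dbl (XY j i c)) A⟫_ℂ).re + _ = _
    ring
  have h14 : (∑ i, ∑ c, ∑ k, ∑ k', b i c k k' *
      ⟪x k, op (1 : ℂ →L[ℂ] ℂ) (XY j i c) (x k')⟫_ℂ).re ≤
      ∑ i, ∑ c, β / 2 * ((⟪A, op (1 : ℂ →L[ℂ] ℂ) (Mon.dbl (XY j i c)) A⟫_ℂ).re + N) := by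
    rw [Complex.re_sum]
    refine Finset.sum_le_sum fun i _ => ?_
    rw [Complex.re_sum]
    refine Finset.sum_le_sum fun c _ => (Complex.re_le_norm _).trans ?_
    linarith [hA3 (XY j i c) (b i c) β hβ (hb i c)]
  refine h14.trans ?_
  rw [h13, h12] at h3
  simp only [Finset.sum_sub_distrib, Finset.sum_add_distrib, ← Finset.mul_sum, Finset.sum_const,
    Finset.card_univ, ZMod.card, Fintype.card_fin, nsmul_eq_mul] at h3 ⊢
  push_cast at h3 ⊢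
  nlinarith

theorem hs_bound {I : Type*} [Fintype I] (b : Fin 4 → F → I → I → ℂ) {β : ℝ} (hβ : 0 < β)
    (hb : ∀ i c (v w : EuclideanSpace ℂ I),
      ‖∑ k, ∑ k', star (v k) * b i c k k' * w k'‖ ≤ β * (‖v‖ * ‖w‖)) {j : ℕ}
    (hj : 3 * 11 ^ (2 * Fintype.card I) ≤ j) {H : Type*} [NormedAddCommGroup H]
    [InnerProductSpace ℂ H] (x : I → L2 (Y j) H) :
    (∑ i, ∑ c, ∑ k, ∑ k', b i c k k' * ⟪x k, op (1 : H →L[ℂ] H) (XY j i c) (x k')⟫_ℂ).re ≤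
      β * (44 - 1 / 16) * ∑ k, ‖x k‖ ^ 2 := by
  let W : Submodule ℂ H := Submodule.span ℂ (Set.range fun p : I × Y j => x p.1 p.2)
  have : FiniteDimensional ℂ W := FiniteDimensional.span_of_finite ℂ (Set.finite_range _)
  let e := stdOrthonormalBasis ℂ W
  let x' : I → Y j → W := fun k y => ⟨x k y, Submodule.subset_span ⟨(k, y), rfl⟩⟩
  let z : Fin (Module.finrank ℂ W) → I → L2 (Y j) ℂ := fun m k =>
    WithLp.toLp 2 fun y => ⟪e m, x' k y⟫_ℂ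
  have h1 : ∀ k y k' y', ⟪x k y, x k' y'⟫_ℂ = ∑ m, ⟪z m k y, z m k' y'⟫_ℂ := fun k y k' y' => by
    change ⟪x' k y, x' k' y'⟫_ℂ = _
    rw [← e.sum_inner_mul_inner]
    refine Finset.sum_congr rfl fun m _ => ?_
    change _ = ⟪⟪e m, x' k y⟫_ℂ, ⟪e m, x' k' y'⟫_ℂ⟫_ℂ
    rw [RCLike.inner_apply, inner_conj_symm, mul_comm]
  have h2 : ∀ (w : Mon (Y j)) k k', ⟪x k, op (1 : H →L[ℂ] H) w (x k')⟫_ℂ =
      ∑ m, ⟪z m k, op (1 : ℂ →L[ℂ] ℂ) w (z m k')⟫_ℂ := fun w k k' => by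
    simp only [PiLp.inner_apply, op_apply, one_apply_eq_self, inner_smul_right, h1, Finset.mul_sum]
    rw [Finset.sum_comm]
  have h3 : ∀ k, ‖x k‖ ^ 2 = ∑ m, ‖z m k‖ ^ 2 := fun k => by
    have := congrArg Complex.re (h2 1 k k)
    simp only [op_one, Complex.re_sum] at this
    refine (inner_self_eq_norm_sq (𝕜 := ℂ) _).symm.trans (this.trans ?_)
    exact Finset.sum_congr rfl fun m _ => inner_self_eq_norm_sq (𝕜 := ℂ) _
  have h4 := Finset.sum_le_sum fun m (_ : m ∈ Finset.univ) => hs_scalar b hβ hb hj (z m)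
  rw [← Finset.mul_sum, Finset.sum_comm, ← Complex.re_sum] at h4
  simp only [h2, h3, Finset.mul_sum]
  simp only [Finset.mul_sum] at h4
  refine le_of_eq_of_le ?_ h4
  congr 1
  symm
  rw [Finset.sum_comm]
  refine Finset.sum_congr rfl fun i _ => ?_
  rw [Finset.sum_comm]
  refine Finset.sum_congr rfl fun c _ => ?_
  rw [Finset.sum_comm]
  refine Finset.sum_congr rfl fun k _ => ?_
  rw [Finset.sum_comm]

end Crest.Agent.R73
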