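import Crest.Agent.R73.Defs

/-! # Row 73: the spectral gap of a `TSys` -/

set_option autoImplicit false

open scoped InnerProductSpace
open Filter Topology

namespace Crest.Agent.R73

namespace T

section Alg
variable {A : Type*} [Ring A] [Algebra ℝ A]

/-- the average over `F` -/
noncomputable def av (x : F → A) : A := (1 / 11 : ℝ) • ∑ c, x c

lemma av_const (a : A) : av (fun _ => a) = a := by
  rw [av, Finset.sum_const, Finset.card_univ, ZMod.card, ← Nat.cast_smul_eq_nsmul ℝ, smul_smul]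
  norm_num

lemma mul_av (a : A) (x : F → A) : a * av x = av fun c => a * x c := by
  simp only [av, mul_smul_comm, Finset.mul_sum]

lemma av_mul (a : A) (x : F → A) : av x * a = av fun c => x c * a := by
  simp only [av, smul_mul_assoc, Finset.sum_mul]

lemma av_equiv (e : F ≃ F) (x : F → A) : av (fun c => x (e c)) = av x := by
  rw [av, av, Equiv.sum_comp e x]

lemma fam_mul_av {x : F → A} (hx : ∀ a b, x (a + b) = x a * x b) (a : F) : x a * av x = av x := by
  rw [mul_av, ← av_equiv (Equiv.addLeft a) x]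
  simp only [Equiv.coe_addLeft, hx]

lemma av_mul_fam {x : F → A} (hx : ∀ a b, x (a + b) = x a * x b) (a : F) : av x * x a = av x := by
  rw [av_mul, ← av_equiv (Equiv.addRight a) x]
  simp only [Equiv.coe_addRight, hx]

lemma av_av {x : F → A} (hx : ∀ a b, x (a + b) = x a * x b) : av x * av x = av x := by
  rw [av_mul]
  simp only [fam_mul_av hx, av_const]

lemma av_comm {x : F → A} {a : A} (h : ∀ b, a * x b = x b * a) : a * av x = av x * a := by
  rw [mul_av, av_mul]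
  simp only [h]

lemma av_av_comm {x z : F → A} (h : ∀ a b, z a * x b = x b * z a) :
    av z * av x = av x * av z :=
  av_comm fun b => (av_comm fun a => (h a b).symm).symm

lemma heis_comm {x y z : F → A} (hz : ∀ a b, z (a + b) = z a * z b)
    (h1 : ∀ a b, z a * x b = x b * z a) (h2 : ∀ a b, z a * y b = y b * z a)
    (h3 : ∀ a b, x a * y b = z (a * b) * y b * x a) :
    av x * av y * av z = av y * av x * av z := by
  have h : ∀ a b, x a * y b * av z = y b * x a * av z := fun a b => by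
    rw [h3, h2, mul_assoc (y b), h1, mul_assoc, mul_assoc, fam_mul_av hz, mul_assoc]
  have h' : ∀ b, av x * y b * av z = y b * av x * av z := fun b => by
    rw [av_mul, av_mul, mul_av (y b), av_mul]
    simp only [h]
  rw [mul_av (av x), av_mul, av_mul (av x), av_mul]
  simp only [h']

lemma heis_main {x y z : F → A} (hx : ∀ a b, x (a + b) = x a * x b) (hy0 : y 0 = 1)
    (h3 : ∀ a b, x a * y b = z (a * b) * y b * x a) :
    av x * av y * av x = av x * av z * av y * av x + (1 / 11 : ℝ) • (av x - av x * av z * av x) := by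
  have h : ∀ b, b ≠ 0 → av x * y b * av x = av x * av z * y b * av x := fun b hb => by
    have e1 : ∀ a, av x * z (a * b) * y b * av x = av x * y b * av x := fun a => by
      calc av x * z (a * b) * y b * av x = av x * (z (a * b) * y b * x a) * av x := by
            simp only [mul_assoc, fam_mul_av hx]
        _ = av x * y b * av x := by rw [← h3, ← mul_assoc, av_mul_fam hx]
    rw [mul_av (av x) z, av_mul (y b) fun c => av x * z c, av_mul (av x) fun c => av x * z c * y b,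
      ← av_equiv (Equiv.mulRight₀ b hb) fun c => av x * z c * y b * av x]
    simp only [Equiv.mulRight₀_apply, e1, av_const]
  have h' : ∀ b, av x * y b * av x = av x * av z * y b * av x +
      if b = 0 then av x - av x * av z * av x else 0 := fun b => by
    split_ifs with hb
    · rw [hb, hy0, mul_one, mul_one, av_av hx]; abel
    · rw [h b hb, add_zero]
  rw [mul_av (av x) y, av_mul, mul_av (av x * av z) y, av_mul]
  conv_lhs => simp only [h']
  generalize av x - av x * av z * av x = w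
  simp only [av, Finset.sum_add_distrib, smul_add, Finset.sum_ite_eq', Finset.mem_univ, if_true]

end Alg

variable {V : Type*} [SeminormedAddCommGroup V] [InnerProductSpace ℝ V]

/-- symmetric idempotents -/
structure Pr (p : Module.End ℝ V) : Prop where
  symm : ∀ u v, ⟪p u, v⟫_ℝ = ⟪u, p v⟫_ℝ
  idem : p * p = p

lemma Pr.app {p : Module.End ℝ V} (h : Pr p) (v : V) : p (p v) = p v :=
  congrArg (fun T : Module.End ℝ V => T v) h.idem

lemma Pr.sq {p : Module.End ℝ V} (h : Pr p) (v : V) : ⟪p v, p v⟫_ℝ = ⟪p v, v⟫_ℝ := by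
  rw [← h.symm, h.app]

lemma Pr.sub_sq {p : Module.End ℝ V} (h : Pr p) (v : V) :
    ⟪v - p v, v - p v⟫_ℝ = ⟪v, v⟫_ℝ - ⟪p v, v⟫_ℝ := by
  simp only [inner_sub_left, inner_sub_right, h.sq, real_inner_comm (p v) v]
  ring

lemma angle {p q r : Module.End ℝ V} (hp : Pr p) (hq : Pr q) (hr : Pr r) (h1 : r * p = p * r)
    (h2 : r * q = q * r) (h3 : p * q * r = q * p * r)
    (h4 : p * q * p = p * r * q * p + (1 / 11 : ℝ) • (p - p * r * p)) (v : V) :
    -(0.31 / 2) * (⟪v - p v, v - p v⟫_ℝ + ⟪v - q v, v - q v⟫_ℝ) ≤ ⟪v - p v, v - q v⟫_ℝ := by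
  set H := p * q * r with hH
  have pH : p * H = H := by rw [hH, ← mul_assoc, ← mul_assoc, hp.idem]
  have qH : q * H = H := by rw [h3, ← mul_assoc, ← mul_assoc, hq.idem]
  have Hp : H * p = H := by rw [h3, mul_assoc, h1, ← mul_assoc, mul_assoc q, hp.idem]
  have rH : r * H = H := by
    rw [hH, ← mul_assoc, ← mul_assoc, h1, mul_assoc p, h2, mul_assoc, mul_assoc, hr.idem,
      mul_assoc]
  have HH : H * H = H := by
    conv_lhs => rw [hH]
    rw [mul_assoc, rH, mul_assoc, qH, pH]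
  have e4 : p * r * q * p = H := by
    rw [mul_assoc p, h2, ← mul_assoc, ← hH, Hp]
  rw [e4] at h4
  have app : ∀ {S T : Module.End ℝ V}, S = T → ∀ w, S w = T w := fun h w => by rw [h]
  set w := v - H v with hw
  have Hw : H w = 0 := by
    rw [hw, map_sub, ← Module.End.mul_apply, HH, sub_self]
  have e1 : v - p v = w - p w := by
    rw [hw, map_sub, ← Module.End.mul_apply p, pH]; abel
  have e2 : v - q v = w - q w := by
    rw [hw, map_sub, ← Module.End.mul_apply q, qH]; abel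
  rw [e1, e2, hp.sub_sq, hq.sub_sq]
  have Ha : H (p w) = 0 := by rw [← Module.End.mul_apply, Hp, Hw]
  have k1 : ⟪q (p w), q (p w)⟫_ℝ ≤ 1 / 11 * ⟪p w, w⟫_ℝ := by
    have a1 := app h4 (p w)
    simp only [Module.End.mul_apply, LinearMap.add_apply, LinearMap.smul_apply,
      LinearMap.sub_apply, hp.app, Ha, zero_add] at a1
    have a2 : ⟪q (p w), q (p w)⟫_ℝ = ⟪p (q (p w)), w⟫_ℝ := by rw [hq.sq, hp.symm]
    have a3 : ⟪p (r (p w)), w⟫_ℝ = ⟪r (p w), r (p w)⟫_ℝ := by rw [hr.sq, hp.symm]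
    rw [a2, a1, real_inner_smul_left, inner_sub_left, a3]
    have := real_inner_self_nonneg (x := r (p w))
    linarith
  have k2 : ⟪q (p w), q w⟫_ℝ = ⟪p w, q w⟫_ℝ := by rw [hq.symm, hq.app]
  have k3 := real_inner_self_nonneg (x := q (p w) - (0.31 : ℝ) • q w)
  have k4 := real_inner_self_nonneg (x := p w + q w - (1.31 : ℝ) • w)
  have k5 : 0 ≤ ⟪p w, w⟫_ℝ := by rw [← hp.sq]; exact real_inner_self_nonneg
  simp only [inner_sub_left, inner_sub_right, inner_add_left, inner_add_right,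
    real_inner_smul_left, real_inner_smul_right, hp.sq, real_inner_comm (q (p w)) (q w), k2,
    real_inner_comm (p w) (q w), real_inner_comm (p w) w, real_inner_comm (q w) w] at k3 k4 ⊢
  rw [hq.sq w] at k3 k4
  linarith

lemma boot {p : Fin 4 → Module.End ℝ V} (hp : ∀ i, Pr (p i))
    (ha : ∀ i j, i ≠ j → ∀ v, -(0.31 / 2) * (⟪v - p i v, v - p i v⟫_ℝ +
      ⟪v - p j v, v - p j v⟫_ℝ) ≤ ⟪v - p i v, v - p j v⟫_ℝ)
    (U : Submodule ℝ V) (hU : ∀ i, ∀ v ∈ U, p i v ∈ U) {m : ℝ} (hm : 0 ≤ m)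
    (h : ∀ v ∈ U, m * ⟪v, v⟫_ℝ ≤ ∑ i, ⟪v - p i v, v - p i v⟫_ℝ) :
    ∀ v ∈ U, m * ⟪v, v⟫_ℝ ≤ (0.9825 + m / 2) * ∑ i, ⟪v - p i v, v - p i v⟫_ℝ := by
  intro v hv
  let D : Module.End ℝ V := ∑ i, (1 - p i)
  have hD : ∀ u, D u = ∑ i, (u - p i u) := fun u => by
    simp only [D, LinearMap.sum_apply, LinearMap.sub_apply, Module.End.one_apply]
  have hB : ∀ u, ∑ i, ⟪u - p i u, u - p i u⟫_ℝ = ⟪D u, u⟫_ℝ := fun u => by
    rw [hD, sum_inner]
    refine Finset.sum_congr rfl fun i _ => ?_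
    rw [(hp i).sub_sq, inner_sub_left]
  have hs : ∀ u u', ⟪D u, u'⟫_ℝ = ⟪u, D u'⟫_ℝ := fun u u' => by
    rw [hD, hD, sum_inner, inner_sum]
    refine Finset.sum_congr rfl fun i _ => ?_
    rw [inner_sub_left, inner_sub_right, (hp i).symm]
  have h4 : ∀ u, ⟪D u, u⟫_ℝ ≤ 4 * ⟪u, u⟫_ℝ := fun u => by
    rw [← hB]
    refine (Finset.sum_le_sum (g := fun _ => ⟪u, u⟫_ℝ) fun i _ => ?_).trans (by simp)
    rw [(hp i).sub_sq, ← (hp i).sq]
    have := real_inner_self_nonneg (x := p i u)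
    linarith
  have h5 : 0.07 * ⟪D v, v⟫_ℝ ≤ ⟪D v, D v⟫_ℝ := by
    rw [← hB, hD]
    simp only [Fin.sum_univ_four, inner_add_left, inner_add_right]
    linarith [ha 0 1 (by decide) v, ha 0 2 (by decide) v, ha 0 3 (by decide) v,
      ha 1 0 (by decide) v, ha 1 2 (by decide) v, ha 1 3 (by decide) v, ha 2 0 (by decide) v,
      ha 2 1 (by decide) v, ha 2 3 (by decide) v, ha 3 0 (by decide) v, ha 3 1 (by decide) v,
      ha 3 2 (by decide) v]
  have hDU : D v ∈ U := by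
    rw [hD]
    exact U.sum_mem fun i _ => U.sub_mem hv (hU i v hv)
  have h6 := h _ (U.sub_mem hv (U.smul_mem (1 / 4 : ℝ) hDU))
  rw [hB] at h6 ⊢
  have h7 := h4 (D v)
  have h8 := mul_nonneg hm (real_inner_self_nonneg (x := D v))
  simp only [map_sub, map_smul, inner_sub_left, inner_sub_right, real_inner_smul_left,
    real_inner_smul_right, real_inner_comm (D v) v] at h6
  rw [hs (D v) v, real_inner_comm (D v) (D v)] at h6
  linarith

theorem gapR {K : Type*} [Group K] {X : Fin 4 → F → K} (hX : TSys X)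
    (ρ : K →* Module.End ℝ V) (hρ : ∀ g v, ‖ρ g v‖ = ‖v‖) (U : Submodule ℝ V)
    (hU : ∀ i c, ∀ v ∈ U, ρ (X i c) v ∈ U) {δ : ℝ} (hδ : 0 < δ)
    (h : ∀ v ∈ U, δ * ‖v‖ ^ 2 ≤ En (fun i c => ρ (X i c)) v) :
    ∀ v ∈ U, ‖v‖ ^ 2 ≤ 2 * En (fun i c => ρ (X i c)) v := by
  have hin : ∀ g u v, ⟪ρ g u, ρ g v⟫_ℝ = ⟪u, v⟫_ℝ := fun g u v => by
    rw [real_inner_eq_norm_add_mul_self_sub_norm_mul_self_sub_norm_mul_self_div_two,
      real_inner_eq_norm_add_mul_self_sub_norm_mul_self_sub_norm_mul_self_div_two, ← map_add,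
      hρ, hρ, hρ]
  have hfam : ∀ {Z : F → K}, IsFam Z → ∀ a b, ρ (Z (a + b)) = ρ (Z a) * ρ (Z b) :=
    fun hZ a b => by rw [hZ a b, map_mul]
  have happ : ∀ (Z : F → K) v, av (fun c => ρ (Z c)) v = (1 / 11 : ℝ) • ∑ c, ρ (Z c) v :=
    fun Z v => by simp only [av, LinearMap.smul_apply, LinearMap.sum_apply]
  have hPr : ∀ {Z : F → K}, IsFam Z → Pr (av fun c => ρ (Z c)) := fun {Z} hZ => by
    refine ⟨fun u v => ?_, av_av (hfam hZ)⟩
    rw [happ, happ, real_inner_smul_left, real_inner_smul_right, sum_inner, inner_sum,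
      ← Equiv.sum_comp (Equiv.neg F)]
    congr 1
    refine Finset.sum_congr rfl fun c _ => ?_
    rw [← hin (Z c), ← Module.End.mul_apply, ← map_mul, Equiv.neg_apply, hZ.neg, mul_inv_cancel,
      map_one, Module.End.one_apply]
  set p : Fin 4 → Module.End ℝ V := fun i => av fun c => ρ (X i c) with hp
  have hEn : ∀ v, En (fun i c => ρ (X i c)) v = 22 * ∑ i, ⟪v - p i v, v - p i v⟫_ℝ := fun v => by
    rw [En, Finset.mul_sum]
    refine Finset.sum_congr rfl fun i _ => ?_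
    rw [(hPr (hX.fam i)).sub_sq, happ, real_inner_smul_left, sum_inner]
    simp only [norm_sub_sq_real, hρ, Finset.sum_add_distrib, Finset.sum_sub_distrib,
      Finset.sum_const, Finset.card_univ, ZMod.card, ← Finset.mul_sum, nsmul_eq_mul,
      real_inner_self_eq_norm_sq]
    push_cast
    ring
  have ha : ∀ i j, i ≠ j → ∀ v, -(0.31 / 2) * (⟪v - p i v, v - p i v⟫_ℝ +
      ⟪v - p j v, v - p j v⟫_ℝ) ≤ ⟪v - p i v, v - p j v⟫_ℝ := fun i j hij v => by
    obtain ⟨Z, hZ, h1, h2, h3⟩ := hX.heis i j hij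
    have h1' : ∀ a b, ρ (Z a) * ρ (X i b) = ρ (X i b) * ρ (Z a) := fun a b => by
      simp only [← map_mul, h1]
    have h2' : ∀ a b, ρ (Z a) * ρ (X j b) = ρ (X j b) * ρ (Z a) := fun a b => by
      simp only [← map_mul, h2]
    have h3' : ∀ a b, ρ (X i a) * ρ (X j b) = ρ (Z (a * b)) * ρ (X j b) * ρ (X i a) :=
      fun a b => by simp only [← map_mul, h3]
    exact angle (hPr (hX.fam i)) (hPr (hX.fam j)) (hPr hZ) (av_av_comm h1') (av_av_comm h2')
      (heis_comm (hfam hZ) h1' h2' h3')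
      (heis_main (z := fun c => ρ (Z c)) (hfam (hX.fam i)) (by rw [(hX.fam j).zero, map_one]) h3') v
  have hU' : ∀ i, ∀ v ∈ U, p i v ∈ U := fun i v hv => by
    rw [hp]
    simp only [happ]
    exact U.smul_mem _ (U.sum_mem fun c _ => hU i c v hv)
  simp only [hEn, ← real_inner_self_eq_norm_sq] at h ⊢
  intro v0 hv0
  by_contra hc
  rw [not_le] at hc
  have hnn : ∀ v, 0 ≤ ∑ i, ⟪v - p i v, v - p i v⟫_ℝ := fun v =>
    Finset.sum_nonneg fun i _ => real_inner_self_nonneg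
  have hbd : ∀ m : ℝ, m * ⟪v0, v0⟫_ℝ ≤ ∑ i, ⟪v0 - p i v0, v0 - p i v0⟫_ℝ → m ≤ 1 / 44 :=
    fun m hm => by
      have := hnn v0
      by_contra hm'
      rw [not_le] at hm'
      nlinarith
  have key : ∀ n : ℕ, ∀ v ∈ U, δ / 22 * 1.006 ^ n * ⟪v, v⟫_ℝ ≤ ∑ i, ⟪v - p i v, v - p i v⟫_ℝ := by
    intro n
    induction n with
    | zero => intro v hv; have := h v hv; linarith
    | succ n ih =>
      intro v hv
      have h1 := boot (fun i => hPr (hX.fam i)) ha U hU' (by positivity) ih v hv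
      have h2 := hbd _ (ih v0 hv0)
      have h3 := hnn v
      have h4 := mul_le_mul_of_nonneg_right h2 h3
      rw [pow_succ]
      linarith
  obtain ⟨n, hn⟩ := pow_unbounded_of_one_lt (22 / δ) (show (1 : ℝ) < 1.006 by norm_num)
  have h1 := hbd _ (key n v0 hv0)
  rw [div_lt_iff₀ hδ] at hn
  linarith

end T

/-- Spectral gap.  Let `p i = (1/11) ∑_c ρ (X i c)` (symmetric idempotents), `q i = 1 - p i`,
`Δ = ∑ q i`; `En v = 22 ∑ ‖q i v‖²`.  For a Heisenberg pair `p_X p_Y p_X = (1/11) p_X (1 - p_Z) + p_H`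
with `p_H = p_X p_Y p_Z`, whence `re ⟪q_X v, q_Y v⟫ ≥ -(0.31/2) (‖q_X v‖² + ‖q_Y v‖²)` and
`‖Δ v‖² ≥ 0.07 re ⟪Δ v, v⟫`.  If `m ‖u‖² ≤ re ⟪Δ u, u⟫` on `U`, test on `u - Δ u / 4`. -/
theorem gap {K : Type*} [Group K] {X : Fin 4 → F → K} (hX : TSys X) {V : Type*}
    [SeminormedAddCommGroup V] [InnerProductSpace ℂ V] (ρ : K →* (V →ₗ[ℂ] V))
    (hρ : ∀ g v, ‖ρ g v‖ = ‖v‖) (U : Submodule ℂ V) (hU : ∀ i c, ∀ v ∈ U, ρ (X i c) v ∈ U)
    {δ : ℝ} (hδ : 0 < δ) (h : ∀ v ∈ U, δ * ‖v‖ ^ 2 ≤ En (fun i c => ρ (X i c)) v) :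
    ∀ v ∈ U, ‖v‖ ^ 2 ≤ 2 * En (fun i c => ρ (X i c)) v := by
  let : InnerProductSpace ℝ V := InnerProductSpace.complexToReal
  exact T.gapR hX
    { toFun := fun g => (ρ g).restrictScalars ℝ
      map_one' := by rw [map_one]; rfl
      map_mul' := fun g g' => by rw [map_mul]; rfl } hρ (U.restrictScalars ℝ) hU hδ h

end Crest.Agent.R73
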