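import Crest.Agent.R73.T

/-! # Row 73: the spectral gap for asymptotic representations -/

set_option autoImplicit false

open scoped InnerProductSpace
open Filter Topology

namespace Crest.Agent.R73

lemma tendsto_ulim (ω : Ultrafilter ℕ) {f : ℕ → ℂ} {C : ℝ} (h : ∀ n, ‖f n‖ ≤ C) :
    Tendsto f ω (𝓝 (limUnder (ω : Filter ℕ) f)) := by
  obtain ⟨x, -, hx⟩ := (isCompact_closedBall (0 : ℂ) C).ultrafilter_le_nhds (ω.map f) (by
    rw [Ultrafilter.coe_map, le_principal_iff, mem_map]
    exact Eventually.of_forall fun n => by simpa using h n)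
  exact tendsto_nhds_limUnder ⟨x, hx⟩

lemma tendsto_norm_of_sub {ω : Filter ℕ} {H : ℕ → Type*} [∀ n, NormedAddCommGroup (H n)]
    {x y : ∀ n, H n} {l : ℝ} (hx : Tendsto (fun n => ‖x n‖) ω (𝓝 l))
    (h : Tendsto (fun n => ‖x n - y n‖) ω (𝓝 0)) : Tendsto (fun n => ‖y n‖) ω (𝓝 l) := by
  have h1 : Tendsto (fun n => ‖x n‖ - ‖y n‖) ω (𝓝 0) :=
    squeeze_zero_norm (fun n => abs_norm_sub_norm_le _ _) h
  simpa using hx.sub h1

/-- The limit semi-inner product of a bounded sequence of linear maps. -/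
@[instance_reducible] noncomputable def limCore (ω : Ultrafilter ℕ) {V : Type*} [AddCommGroup V]
    [Module ℂ V] {H : ℕ → Type*} [∀ n, NormedAddCommGroup (H n)] [∀ n, InnerProductSpace ℂ (H n)]
    (L : ∀ n, V →ₗ[ℂ] H n)
    (hL : ∀ a b, Tendsto (fun n => ⟪L n a, L n b⟫_ℂ) ω
      (𝓝 (limUnder (ω : Filter ℕ) fun n => ⟪L n a, L n b⟫_ℂ))) :
    PreInnerProductSpace.Core ℂ V where
  inner a b := limUnder (ω : Filter ℕ) fun n => ⟪L n a, L n b⟫_ℂ
  conj_inner_symm a b := by
    refine tendsto_nhds_unique ((Complex.continuous_conj.tendsto _).comp (hL b a)) ?_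
    simpa [Function.comp_def] using hL a b
  re_inner_nonneg a :=
    ge_of_tendsto' ((Complex.continuous_re.tendsto _).comp (hL a a)) fun n =>
      inner_self_nonneg (𝕜 := ℂ)
  add_left a b c := by
    refine tendsto_nhds_unique (hL (a + b) c) ?_
    simpa [inner_add_left] using (hL a c).add (hL b c)
  smul_left a b r := by
    refine tendsto_nhds_unique (hL (r • a) b) ?_
    simpa only [map_smul, inner_smul_left] using (hL a b).const_mul (starRingEnd ℂ r)

/-- The left regular action. -/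
noncomputable def lreg (K : Type*) [Group K] : K →* ((K →₀ ℂ) →ₗ[ℂ] (K →₀ ℂ)) where
  toFun g := Finsupp.lmapDomain ℂ ℂ (g * ·)
  map_one' := by ext; simp
  map_mul' g h := by ext; simp [mul_assoc]

lemma lreg_single {K : Type*} [Group K] (g h : K) (c : ℂ) :
    lreg K g (Finsupp.single h c) = Finsupp.single (g * h) c := by simp [lreg]

/-- The gap along an ultrafilter: put the semi-inner product `lim ⟪R n a (Z n), R n b (Z n)⟫` on
`K →₀ ℂ` and apply `gap` to the left regular action. -/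
theorem ultra_gap {ω : Ultrafilter ℕ} {K : Type*} [Group K] {X : Fin 4 → F → K} (hX : TSys X)
    {H : ℕ → Type*} [∀ n, NormedAddCommGroup (H n)] [∀ n, InnerProductSpace ℂ (H n)]
    {R : ∀ n, K → H n →L[ℂ] H n} (hR : AsymRep ω R) {δ : ℝ} (hδ : 0 < δ)
    (h : ∀ᶠ n in (ω : Filter ℕ), ∀ x : H n, δ * ‖x‖ ^ 2 ≤ En (fun i c => R n (X i c)) x)
    (Z : ∀ n, H n) {C : ℝ} (hZ : ∀ n, ‖Z n‖ ≤ C) {η : ℝ} (hη : 0 < η) :
    ∀ᶠ n in (ω : Filter ℕ), ‖Z n‖ ^ 2 ≤ 2 * En (fun i c => R n (X i c)) (Z n) + η := by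
  let L : ∀ n, (K →₀ ℂ) →ₗ[ℂ] H n := fun n => Finsupp.linearCombination ℂ fun g => R n g (Z n)
  have hLs : ∀ n g c, L n (Finsupp.single g c) = c • R n g (Z n) := fun n g c => by simp [L]
  have hLb : ∀ a, ∃ D, ∀ n, ‖L n a‖ ≤ D := fun a => by
    induction a using Finsupp.induction_linear with
    | zero => exact ⟨0, by simp⟩
    | add a b ha hb =>
      obtain ⟨D, hD⟩ := ha
      obtain ⟨D', hD'⟩ := hb
      exact ⟨D + D', fun n => by
        rw [map_add]; exact (norm_add_le _ _).trans (add_le_add (hD n) (hD' n))⟩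
    | single g c =>
      obtain ⟨D, hD⟩ := hR.bdd g
      refine ⟨‖c‖ * (D * C), fun n => ?_⟩
      rw [hLs, norm_smul]
      gcongr
      exact ((R n g).le_opNorm _).trans
        (mul_le_mul (hD n) (hZ n) (norm_nonneg _) ((norm_nonneg _).trans (hD n)))
  have hLm : ∀ g a, Tendsto (fun n => ‖L n (lreg K g a) - R n g (L n a)‖) ω (𝓝 0) := fun g a => by
    induction a using Finsupp.induction_linear with
    | zero => simp
    | add a b ha hb =>
      refine squeeze_zero (fun _ => norm_nonneg _) (fun n => ?_) (by simpa using ha.add hb)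
      simp only [map_add]
      rw [add_sub_add_comm]
      exact norm_add_le _ _
    | single g' c =>
      refine squeeze_zero (fun _ => norm_nonneg _) (fun n => ?_)
        (by simpa using ((hR.mul g g').mul_const C).const_mul ‖c‖)
      rw [lreg_single, hLs, hLs, map_smul, ← smul_sub, norm_smul]
      gcongr
      exact ((R n (g * g') - R n g ∘L R n g').le_opNorm (Z n)).trans (by gcongr; exact hZ n)
  have hL : ∀ a b, Tendsto (fun n => ⟪L n a, L n b⟫_ℂ) ω
      (𝓝 (limUnder (ω : Filter ℕ) fun n => ⟪L n a, L n b⟫_ℂ)) := fun a b => by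
    obtain ⟨D, hD⟩ := hLb a
    obtain ⟨D', hD'⟩ := hLb b
    exact tendsto_ulim ω (C := D * D') fun n => (norm_inner_le_norm _ _).trans
      (mul_le_mul (hD n) (hD' n) (norm_nonneg _) ((norm_nonneg _).trans (hD n)))
  let core := limCore ω L hL
  let _ : SeminormedAddCommGroup (K →₀ ℂ) :=
    InnerProductSpace.Core.toSeminormedAddCommGroup (c := core)
  let _ : InnerProductSpace ℂ (K →₀ ℂ) := InnerProductSpace.ofCore core
  have hN : ∀ a : K →₀ ℂ, Tendsto (fun n => ‖L n a‖) ω (𝓝 ‖a‖) := fun a => by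
    have h1 := ((Complex.continuous_re.tendsto _).comp (hL a a)).sqrt
    refine h1.congr fun n => ?_
    exact (norm_eq_sqrt_re_inner (𝕜 := ℂ) _).symm
  have hE : ∀ (a : K →₀ ℂ) (x : ∀ n, H n), Tendsto (fun n => ‖L n a - x n‖) ω (𝓝 0) →
      Tendsto (fun n => En (fun i c => R n (X i c)) (x n)) ω
        (𝓝 (En (fun i c => lreg K (X i c)) a)) := fun a x hx => by
    refine tendsto_finsetSum _ fun i _ => tendsto_finsetSum _ fun c _ => Tendsto.pow ?_ 2
    refine tendsto_norm_of_sub (hN _) ?_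
    obtain ⟨D, hD⟩ := hR.bdd (X i c)
    refine squeeze_zero (fun _ => norm_nonneg _) (fun n => ?_)
      (by simpa using ((hLm (X i c) a).add (hx.const_mul D)).add hx)
    have : L n (lreg K (X i c) a - a) - (R n (X i c) (x n) - x n) =
        (L n (lreg K (X i c) a) - R n (X i c) (L n a)) + R n (X i c) (L n a - x n) +
          -(L n a - x n) := by
      simp only [map_sub]; abel
    rw [this]
    refine norm_add₃_le.trans (add_le_add (add_le_add le_rfl ?_) (norm_neg _).le)
    exact ((R n (X i c)).le_opNorm _).trans (by gcongr; exact hD n)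
  have hρ : ∀ g (a : K →₀ ℂ), ‖lreg K g a‖ = ‖a‖ := fun g a => by
    have h1 := (tendsto_norm_of_sub (hN _) (hLm g a)).pow 2
    obtain ⟨ε, hε, h2⟩ := hR.iso g
    have h3 : Tendsto (fun n => ‖R n g (L n a)‖ ^ 2 - ‖L n a‖ ^ 2) ω (𝓝 0) :=
      squeeze_zero_norm (fun n => h2 n _) (by simpa using hε.mul ((hN a).pow 2))
    have h4 := tendsto_nhds_unique (h1.sub ((hN a).pow 2)) h3
    exact (sq_eq_sq₀ (norm_nonneg _) (norm_nonneg _)).1 (sub_eq_zero.1 h4)
  have hgap := gap hX (lreg K) hρ ⊤ (fun _ _ _ _ => trivial) hδ (fun a _ =>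
    le_of_tendsto_of_tendsto (((hN a).pow 2).const_mul δ) (hE a (fun n => L n a) (by simp))
      (h.mono fun n hn => hn _)) (Finsupp.single 1 1) trivial
  have h1 : Tendsto (fun n => ‖L n (Finsupp.single 1 1) - Z n‖) ω (𝓝 0) := by
    refine squeeze_zero (fun _ => norm_nonneg _) (fun n => ?_) (by simpa using hR.one.mul_const C)
    rw [hLs, one_smul]
    exact ((R n 1 - 1).le_opNorm (Z n)).trans (by gcongr; exact hZ n)
  have h2 := ((tendsto_norm_of_sub (hN _) h1).pow 2).sub ((hE _ Z h1).const_mul 2)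
  filter_upwards [h2.eventually_le_const (u := η) (by linarith)] with n hn
  linarith

/-- Tensoring an asymptotic representation with monomial representations. -/
theorem AsymRep.op {ω : Ultrafilter ℕ} {Γ : Type*} [Group Γ]
    {H : ℕ → Type*} [∀ n, NormedAddCommGroup (H n)] [∀ n, InnerProductSpace ℂ (H n)]
    {v : ∀ n, Γ → H n →L[ℂ] H n} (hv : AsymRep ω v) (Y : ℕ → Type*) [∀ n, Fintype (Y n)] :
    AsymRep ω (K := Γ × ∀ n, Mon (Y n)) (H := fun n => L2 (Y n) (H n))
      fun n g => op (v n g.1) (g.2 n) := by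
  refine ⟨fun g => ?_, fun g h => ?_, ?_, fun g => ?_⟩
  · obtain ⟨C, hC⟩ := hv.bdd g.1
    exact ⟨C, fun n => (norm_op_le _ _).trans (hC n)⟩
  · refine squeeze_zero (fun _ => norm_nonneg _) (fun n => ?_) (hv.mul g.1 h.1)
    refine ContinuousLinearMap.opNorm_le_bound _ (norm_nonneg _) fun x => ?_
    rw [sub_apply, ContinuousLinearMap.comp_apply, op_mul]
    exact (congrArg norm (op_sub _ _ _ _).symm).trans_le (norm_op_apply_le _ _ _)
  · refine squeeze_zero (fun _ => norm_nonneg _) (fun n => ?_) hv.one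
    refine ContinuousLinearMap.opNorm_le_bound _ (norm_nonneg _) fun x => ?_
    rw [sub_apply, one_apply_eq_self]
    have := op_sub (v n 1) 1 (1 : Mon (Y n)) x
    rw [op_one] at this
    exact (congrArg norm this.symm).trans_le (norm_op_apply_le _ _ _)
  · obtain ⟨η, h1, h2⟩ := hv.iso g.1
    refine ⟨η, h1, fun n x => ?_⟩
    rw [norm_sq_op, L2_norm_sq, ← Finset.sum_sub_distrib, Finset.mul_sum]
    exact (Finset.abs_sum_le_sum_abs _ _).trans (Finset.sum_le_sum fun y _ => h2 n _)

end Crest.Agent.R73
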